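import Vale.Agent.Lib.P064Y.Typed

/-!
The bound through `ty_main` for a family with two degree levels (notes/P064Y_blueprint.md, part AB).
-/

open Finset

namespace Vale.Agent.Lib.P064Y

open Vale.Agent.Lib.P064 Vale.Agent.Lib.P064U
open scoped Classical

variable {V α : Type} [Fintype V] [Fintype α] {H : SimpleGraph V} {F : SimpleGraph α} {n : ℕ}
  {q : ℝ}

/-- The degree in `F` and `dW` on the whole vertex set. -/
lemma dW_univ (y : α) : dW F univ y = (nb F y).card := by
  have h : newE F (univ \ {y}) {y} = (nb F y).image (fun u => s(y, u)) := by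
    ext e
    induction e using Sym2.ind with
    | _ a b =>
      rw [mem_newE_pair, Finset.mem_image]
      constructor
      · rintro ⟨hadj, -, -, hn⟩
        by_cases ha : a = y
        · subst ha
          exact ⟨b, mem_nb.2 hadj, rfl⟩
        · have hb : b = y := by
            by_contra hb
            exact hn ⟨by simp [ha], by simp [hb]⟩
          subst hb
          exact ⟨a, mem_nb.2 hadj.symm, Sym2.eq_swap⟩
      · rintro ⟨u, hu, hs⟩
        have hadj := mem_nb.1 hu
        have hne : y ≠ u := hadj.ne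
        simp only [Sym2.eq_iff] at hs
        rcases hs with ⟨rfl, rfl⟩ | ⟨rfl, rfl⟩
        · refine ⟨hadj, by simp, ?_, ?_⟩
          · by_cases hb : u = y
            · simp [hb]
            · simp [hb]
          · simp
        · refine ⟨hadj.symm, ?_, by simp, ?_⟩
          · by_cases hb : u = y
            · simp [hb]
            · simp [hb]
          · simp
  unfold dW eT
  rw [h, Finset.card_image_of_injOn]
  intro u _ u' _ huu
  simp only [Sym2.eq_iff] at huu
  rcases huu with ⟨_, h2⟩ | ⟨h1, h2⟩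
  · exact h2
  · rw [h2, ← h1]

/-- `Σ_y deg y ≤ 2 e`. -/
lemma sum_deg_le : ∑ y, (nb F y).card ≤ 2 * (eIn F univ).card := by
  have h4 : ∀ x, (nb F x).card ≤ ((eIn F univ).filter fun e => x ∈ e).card := by
    intro x
    refine Finset.card_le_card_of_injOn (fun u => s(x, u)) ?_ ?_
    · intro u hu
      have hu' : u ∈ nb F x := hu
      exact Finset.mem_filter.2 ⟨mem_eIn_pair.2 ⟨mem_nb.1 hu', mem_univ _, mem_univ _⟩,
        Sym2.mem_mk_left _ _⟩
    · intro u hu u' hu' h
      have hu1 : u ∈ nb F x := hu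
      have hadj := mem_nb.1 hu1
      simp only [Sym2.eq_iff] at h
      rcases h with ⟨_, h⟩ | ⟨h1, h2⟩
      · exact h
      · rw [h2, ← h1]
  calc ∑ x, (nb F x).card ≤ ∑ x, ((eIn F univ).filter fun e => x ∈ e).card :=
        Finset.sum_le_sum fun x _ => h4 x
    _ = ∑ e ∈ eIn F univ, (univ.filter fun x => x ∈ e).card := by
        simp only [Finset.card_filter]
        rw [Finset.sum_comm]
    _ ≤ ∑ _e ∈ eIn F univ, 2 := by
        refine Finset.sum_le_sum ?_
        intro e _
        induction e using Sym2.ind with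
        | _ u v =>
          refine (Finset.card_le_card (t := {u, v}) ?_).trans Finset.card_le_two
          intro y hy
          have h := (Finset.mem_filter.1 hy).2
          simp only [Sym2.mem_iff] at h
          simpa using h
    _ = 2 * (eIn F univ).card := by
        rw [Finset.sum_const, smul_eq_mul, mul_comm]

/-- `ty_main` with `W = univ`, `g y = G₀` on `Big`, `g₀` elsewhere.  `P = Σ_{y ∈ Big} c y`; `c y ≤ deg y`, `Σ deg ≤ 2 e`, so `∏ g^c ≤ g₀^(2e) G₀^P`; `proj_univ_injective`. -/
theorem a_bound (hG : GoodDensity n q H) (hn : 2 ≤ n) (hV : Fintype.card V ≤ n) (hq0 : 0 < q)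
    (hqe : q ≤ Real.exp (-1)) (hL : 1 ≤ Real.log n) (hQ16 : 16 ≤ - Real.log q)
    (hD : 1 ≤ (n : ℝ) * q) (hD2 : (Real.exp 1 * ((n : ℝ) * q)) ^ 2 < n)
    (S : Finset (α → V)) (hS : S.Nonempty) (hinj : ∀ φ ∈ S, Function.Injective φ)
    (hhom : ∀ φ ∈ S, ∀ u v, F.Adj u v → H.Adj (φ u) (φ v))
    (Big : Finset α) {g₀ G₀ : ℝ} (hg₀ : 1 ≤ g₀) (hG₀ : 1 ≤ G₀)
    (hdeg : ∀ φ ∈ S, ∀ y, ((nb H (φ y)).card : ℝ) ≤ (if y ∈ Big then G₀ else g₀) * ((n : ℝ) * q)) :
    ∃ (P X Rc : ℕ),
      P + Big.card ≤ ∑ y ∈ Big, (nb F y).card + Rc ∧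
      Rc + (eIn F univ).card = Fintype.card α + X ∧
      (X : ℝ) * (- Real.log q - 1) ≤ (Fintype.card α : ℝ) * (Real.log ((n : ℝ) * q) + 1) ∧
      (S.card : ℝ) ≤ xA ^ Fintype.card α * xKb n q ^ (eIn F univ).card *
        ((n : ℝ) ^ Fintype.card α * q ^ (eIn F univ).card) * (g₀ ^ (2 * (eIn F univ).card) * G₀ ^ P) := by
  have hg1 : ∀ y, 1 ≤ (if y ∈ Big then G₀ else g₀) := by
    intro y
    split_ifs <;> assumption
  obtain ⟨c, Rt, X, hc, -, -, hRt, hX, hcount⟩ :=
    ty_main hG hn hV hq0 hqe hL hQ16 hD hD2 S hS hinj hhom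
      (fun y => if y ∈ Big then G₀ else g₀) hg1 hdeg (Fintype.card α) univ (by simp)
  have hc' : ∀ y, c y + 1 ≤ (nb F y).card + (if y ∈ Rt then 1 else 0) := by
    intro y
    have h := hc y (mem_univ y)
    rwa [dW_univ] at h
  refine ⟨∑ y ∈ Big, c y, X, Rt.card, ?_, ?_, ?_, ?_⟩
  · have h1 : ∑ y ∈ Big, c y + Big.card = ∑ y ∈ Big, (c y + 1) := by
      rw [Finset.sum_add_distrib, Finset.sum_const, smul_eq_mul, mul_one]
    have h2 : ∑ y ∈ Big, (c y + 1) ≤
        ∑ y ∈ Big, ((nb F y).card + (if y ∈ Rt then 1 else 0)) :=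
      Finset.sum_le_sum fun y _ => hc' y
    have h3 : ∑ y ∈ Big, (if y ∈ Rt then 1 else 0) ≤ Rt.card := by
      rw [Finset.sum_boole]
      simp only [Nat.cast_id]
      exact Finset.card_le_card (fun y hy => (Finset.mem_filter.1 hy).2)
    have h2' : ∑ y ∈ Big, (c y + 1) ≤
        ∑ y ∈ Big, (nb F y).card + ∑ y ∈ Big, (if y ∈ Rt then 1 else 0) := by
      rw [← Finset.sum_add_distrib]
      exact h2
    omega
  · simpa using hRt
  · simpa using hX
  · have hcard : S.card = (S.image (proj univ)).card :=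
      (Finset.card_image_of_injective _ proj_univ_injective).symm
    have hxA : (0 : ℝ) ≤ xA ^ Fintype.card α * xKb n q ^ (eIn F univ).card *
        ((n : ℝ) ^ Fintype.card α * q ^ (eIn F univ).card) := by
      have h1 : 0 ≤ xA := le_trans zero_le_one one_le_xA
      have h2 : 0 ≤ xKb n q := by
        unfold xKb xC
        positivity
      positivity
    have hprod : ∏ y, (if y ∈ Big then G₀ else g₀) ^ c y ≤
        g₀ ^ (2 * (eIn F univ).card) * G₀ ^ ∑ y ∈ Big, c y := by
      have hsplit : ∏ y, (if y ∈ Big then G₀ else g₀) ^ c y =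
          (∏ y ∈ Big, G₀ ^ c y) * ∏ y ∈ univ \ Big, g₀ ^ c y := by
        rw [← Finset.prod_sdiff (Finset.subset_univ Big), mul_comm]
        congr 1
        · refine Finset.prod_congr rfl fun y hy => ?_
          rw [if_pos hy]
        · refine Finset.prod_congr rfl fun y hy => ?_
          rw [if_neg (Finset.mem_sdiff.1 hy).2]
      rw [hsplit, Finset.prod_pow_eq_pow_sum, Finset.prod_pow_eq_pow_sum, mul_comm]
      have hs : ∑ y ∈ univ \ Big, c y ≤ 2 * (eIn F univ).card := by
        calc ∑ y ∈ univ \ Big, c y ≤ ∑ y ∈ univ \ Big, (nb F y).card := by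
              refine Finset.sum_le_sum fun y _ => ?_
              have h := hc' y
              split_ifs at h <;> omega
          _ ≤ ∑ y, (nb F y).card :=
              Finset.sum_le_sum_of_subset (Finset.subset_univ _)
          _ ≤ _ := sum_deg_le
      have hG0 : (0 : ℝ) ≤ G₀ ^ ∑ y ∈ Big, c y := by
        have : (0 : ℝ) ≤ G₀ := by linarith
        positivity
      exact mul_le_mul_of_nonneg_right (pow_le_pow_right₀ hg₀ hs) hG0
    rw [hcard]
    have hcount' : ((S.image (proj univ)).card : ℝ) ≤ _ := hcount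
    simp only [Finset.card_univ] at hcount'
    refine hcount'.trans ?_
    exact mul_le_mul_of_nonneg_left hprod hxA

end Vale.Agent.Lib.P064Y
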