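import Vale.Agent.Lib.P064Y.Weights2
import Vale.Agent.Lib.P064Q.Conn

/-!
The bound through P064Q for the embeddings with a given set of vertices of class other than low (notes/P064Y_blueprint.md, part BB).
-/

open Finset

namespace Vale.Agent.Lib.P064Y

open Vale.Agent.Lib.P064 Vale.Agent.Lib.P064E Vale.Agent.Lib.P064U Vale.Agent.Lib.P064Q
open scoped Classical

variable {V β : Type} [Fintype V] [Fintype β] {H : SimpleGraph V} {n : ℕ} {q l lam : ℝ}

/-- The embeddings whose vertices of class other than low are exactly `Big`. -/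
noncomputable def SB (G : SimpleGraph β) (H : SimpleGraph V) (A₁ : ℝ) (I : ℕ) (Big : Finset β) : Finset (β → V) :=
  (emb G H).filter fun φ => ∀ y, classOf G H A₁ I φ y = Sum.inl 0 ↔ y ∉ Big

/-- The constant of `b_bound`. -/
noncomputable def YB (v e : ℕ) : ℝ := Real.exp (2 + 6 * (v : ℝ) + 69 * (e : ℝ))

/-- `ct y + 1 ≤ deg y` off the root: the children and the parent are distinct neighbours (`r` decreases).  `ct z ≤ deg z`. -/
lemma ct_add_one_le {G : SimpleGraph β} {z : β} {par : β → β} {r : β → ℕ} (hT : RootedT G z par r)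
    {y : β} (hy : y ≠ z) : ct z par y + 1 ≤ (nb G y).card := by
  unfold ct
  have hsub : insert (par y) (univ.filter fun u => u ≠ z ∧ par u = y) ⊆ nb G y := by
    intro u hu
    rcases Finset.mem_insert.1 hu with rfl | hu
    · exact mem_nb.2 (hT.hpar y hy).2.symm
    · obtain ⟨_, huz, hpu⟩ := Finset.mem_filter.1 hu
      have h := (hT.hpar u huz).2
      rw [hpu] at h
      exact mem_nb.2 h
  have hnot : par y ∉ (univ.filter fun u => u ≠ z ∧ par u = y) := by
    intro h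
    obtain ⟨_, h1, h2⟩ := Finset.mem_filter.1 h
    have h3 := (hT.hpar _ h1).1
    rw [h2] at h3
    have h4 := (hT.hpar y hy).1
    omega
  have h5 := Finset.card_le_card hsub
  rw [Finset.card_insert_of_notMem hnot] at h5
  exact h5

lemma ct_root_le {G : SimpleGraph β} {z : β} {par : β → β} {r : β → ℕ} (hT : RootedT G z par r) :
    ct z par z ≤ (nb G z).card := by
  unfold ct
  refine Finset.card_le_card ?_
  intro u hu
  obtain ⟨_, huz, hpu⟩ := Finset.mem_filter.1 hu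
  have h := (hT.hpar u huz).2
  rw [hpu] at h
  exact mem_nb.2 h

private lemma WQ_nonneg' {A₁ : ℝ} {s₁ I δ cF cS : ℕ} (hq0 : 0 < q) (hA1 : (1 : ℝ) ≤ A₁) (c : Cls I) :
    0 ≤ WQ A₁ ((n : ℝ) * q) s₁ δ cF cS c := by
  rcases c with k | i
  · simp only [WQ, Sum.elim_inl]
    split_ifs <;> positivity
  · simp only [WQ, Sum.elim_inr]
    split_ifs <;> positivity

/-- The sum over the allowed types. -/
private lemma SB_le (hG : GoodDensity n q H) {Δ A₁ : ℝ} {s₁ I : ℕ} (hV : Fintype.card V ≤ n)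
    (hp : QPar n q l lam Δ A₁ s₁ I) (G : SimpleGraph β) [Nonempty β] (hedge : 1 ≤ (eIn G univ).card)
    (par : β → β → β) (r : β → β → ℕ) (hT : ∀ z, RootedT G z (par z) (r z)) (Big : Finset β)
    (t : β → Finset (Cls I)) (ht : ∀ φ ∈ SB G H A₁ I Big, ∀ y, classOf G H A₁ I φ y ∈ t y) :
    ((SB G H A₁ I Big).card : ℝ) ≤
      ∑ z, (2 * Real.exp 1 * (Fintype.card β : ℝ) * (4 : ℝ) ^ Fintype.card β *
        ((n : ℝ) ^ Fintype.card β * q ^ (eIn G univ).card) *
        Real.exp (Fintype.card β) * Real.exp ((eIn G univ).card)) *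
        ∏ y, ∑ c ∈ t y, WQ A₁ ((n : ℝ) * q) s₁ (nb G y).card (cf G z (par z) y) (cs G z (par z) y) c := by
  have hq0 : 0 < q := hp.std.q0
  have hA1 : (1 : ℝ) ≤ A₁ := by
    rw [hp.A₁eq]
    exact one_le_pow₀ (by norm_num)
  set X : ℝ := 2 * Real.exp 1 * (Fintype.card β : ℝ) * (4 : ℝ) ^ Fintype.card β *
        ((n : ℝ) ^ Fintype.card β * q ^ (eIn G univ).card) *
        Real.exp (Fintype.card β) * Real.exp ((eIn G univ).card) with hX
  have hX0 : 0 ≤ X := by rw [hX]; positivity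
  have htype : ∀ τ : β → Cls I, ((typedQ G H A₁ I τ).card : ℝ) ≤
      ∑ z, X * ∏ y, WQ A₁ ((n : ℝ) * q) s₁ (nb G y).card (cf G z (par z) y) (cs G z (par z) y) (τ y) := by
    intro τ
    by_cases hne : (typedQ G H A₁ I τ).Nonempty
    · obtain ⟨φ, hφ⟩ := hne
      refine (type_bound (H := H) hG hV hp G hedge par r hT τ).trans ?_
      exact Finset.sum_le_sum fun z _ => BBQ_le (H := H) hG hV hp hφ (hT z)
    · rw [Finset.not_nonempty_iff_eq_empty.1 hne]
      simp only [Finset.card_empty, Nat.cast_zero]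
      exact Finset.sum_nonneg fun z _ => mul_nonneg hX0
        (Finset.prod_nonneg fun y _ => WQ_nonneg' hq0 hA1 _)
  have hsub : SB G H A₁ I Big ⊆ (Fintype.piFinset t).biUnion fun τ => typedQ G H A₁ I τ := by
    intro φ hφ
    refine Finset.mem_biUnion.2 ⟨fun y => classOf G H A₁ I φ y, Fintype.mem_piFinset.2 (ht φ hφ), ?_⟩
    exact Finset.mem_filter.2 ⟨(Finset.mem_filter.1 hφ).1, fun y => rfl⟩
  have hcard : ((SB G H A₁ I Big).card : ℝ) ≤
      ∑ τ ∈ Fintype.piFinset t, ((typedQ G H A₁ I τ).card : ℝ) := by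
    exact_mod_cast (Finset.card_le_card hsub).trans Finset.card_biUnion_le
  calc ((SB G H A₁ I Big).card : ℝ)
      ≤ ∑ τ ∈ Fintype.piFinset t, ∑ z, X * ∏ y,
          WQ A₁ ((n : ℝ) * q) s₁ (nb G y).card (cf G z (par z) y) (cs G z (par z) y) (τ y) :=
        hcard.trans (Finset.sum_le_sum fun τ _ => htype τ)
    _ = ∑ z, X * ∑ τ ∈ Fintype.piFinset t, ∏ y,
          WQ A₁ ((n : ℝ) * q) s₁ (nb G y).card (cf G z (par z) y) (cs G z (par z) y) (τ y) := by
        rw [Finset.sum_comm]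
        refine Finset.sum_congr rfl fun z _ => ?_
        rw [Finset.mul_sum]
    _ = _ := by
        refine Finset.sum_congr rfl fun z _ => ?_
        rw [Finset.prod_univ_sum]

/-- The numerical constant. -/
private lemma const_le (v e : ℕ) :
    2 * Real.exp 1 * (v : ℝ) * (4 : ℝ) ^ v * Real.exp (v : ℝ) * Real.exp (e : ℝ) *
      ((3 : ℝ) ^ v * (16 * Real.exp 1) ^ e * Real.exp (64 * (e : ℝ))) ≤ YB v e := by
  unfold YB
  have he27 : (2.7 : ℝ) ≤ Real.exp 1 := by
    have := Real.exp_one_gt_d9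
    linarith
  have hexp2 : Real.exp 2 = Real.exp 1 * Real.exp 1 := by
    rw [← Real.exp_add]; norm_num
  have h2e : 2 * Real.exp 1 ≤ Real.exp 2 := by
    rw [hexp2]
    nlinarith
  have hvexp : (v : ℝ) ≤ Real.exp (v : ℝ) := by
    have := Real.add_one_le_exp (v : ℝ)
    linarith
  have hpow2 : Real.exp (2 * (v : ℝ)) = (Real.exp 2) ^ v := by
    rw [← Real.exp_nat_mul]
    congr 1
    ring
  have h7 : (7 : ℝ) ≤ Real.exp 2 := by
    rw [hexp2]
    nlinarith
  have h4v : (4 : ℝ) ^ v ≤ Real.exp (2 * (v : ℝ)) := by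
    rw [hpow2]
    exact pow_le_pow_left₀ (by norm_num) (by linarith) _
  have h3v : (3 : ℝ) ^ v ≤ Real.exp (2 * (v : ℝ)) := by
    rw [hpow2]
    exact pow_le_pow_left₀ (by norm_num) (by linarith) _
  have h16 : (16 * Real.exp 1) ^ e ≤ Real.exp (4 * (e : ℝ)) := by
    have h4 : Real.exp (4 * (e : ℝ)) = (Real.exp 4) ^ e := by
      rw [← Real.exp_nat_mul]
      congr 1
      ring
    rw [h4]
    refine pow_le_pow_left₀ (by positivity) ?_ _
    have h5 : Real.exp 4 = Real.exp 1 * (Real.exp 1 * (Real.exp 1 * Real.exp 1)) := by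
      simp only [← Real.exp_add]; norm_num
    rw [h5]
    have h6 : (16 : ℝ) ≤ Real.exp 1 * (Real.exp 1 * Real.exp 1) := by
      have h7 : (7.29 : ℝ) ≤ Real.exp 1 * Real.exp 1 := by nlinarith
      nlinarith
    have hpos : 0 < Real.exp 1 := Real.exp_pos 1
    nlinarith
  calc 2 * Real.exp 1 * (v : ℝ) * (4 : ℝ) ^ v * Real.exp (v : ℝ) * Real.exp (e : ℝ) *
        ((3 : ℝ) ^ v * (16 * Real.exp 1) ^ e * Real.exp (64 * (e : ℝ)))
      = (2 * Real.exp 1) * (v : ℝ) * (4 : ℝ) ^ v * Real.exp (v : ℝ) * Real.exp (e : ℝ) *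
        (3 : ℝ) ^ v * (16 * Real.exp 1) ^ e * Real.exp (64 * (e : ℝ)) := by ring
    _ ≤ Real.exp 2 * Real.exp (v : ℝ) * Real.exp (2 * (v : ℝ)) * Real.exp (v : ℝ) * Real.exp (e : ℝ) *
        Real.exp (2 * (v : ℝ)) * Real.exp (4 * (e : ℝ)) * Real.exp (64 * (e : ℝ)) := by
        gcongr
    _ = Real.exp (2 + 6 * (v : ℝ) + 69 * (e : ℝ)) := by
        simp only [← Real.exp_add]
        congr 1
        ring

/-- The sums of `ct` and of the degrees. -/
private lemma sums_le {G : SimpleGraph β} {z : β} {par : β → β} {r : β → ℕ}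
    (hT : RootedT G z par r) :
    ∑ y, ct z par y ≤ (eIn G univ).card ∧
      ∑ y, (32 * ((nb G y).card : ℝ)) ≤ 64 * ((eIn G univ).card : ℝ) := by
  constructor
  · have h4 := sum_ct hT
    have h6 := v_le_e_add_one hT
    omega
  · rw [← Finset.mul_sum]
    have h7 : ∑ y, ((nb G y).card : ℝ) ≤ 2 * ((eIn G univ).card : ℝ) := by
      have h9 := sum_nbIn_self_le (F := G) (univ : Finset β)
      have h10 : ∀ y, nbIn G univ y = (nb G y).card := fun y => by
        simp [nbIn, nb]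
      simp only [h10] at h9
      exact_mod_cast h9
    linarith

private lemma exp_ge_one : (1 : ℝ) ≤ 16 * Real.exp 1 := by
  have h3 : (1 : ℝ) ≤ Real.exp 1 := Real.one_le_exp (by norm_num)
  linarith

/-- As in `conn_boundQ`: `SB ⊂ ⋃_τ typedQ τ` over `τ` with `τ y = low` off `Big`, `τ y ≠ low` on `Big`; `type_bound`, `BBQ_le` on nonempty types, `Finset.prod_univ_sum` with `Fintype.piFinset`, `WQ_low`, `ct_eq`, `nonlow_sum`; `Σ_y ct y ≤ e`
(`sum_ct`, `v_le_e_add_one`), `Σ deg ≤ 2 e`. -/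
theorem b_bound (hG : GoodDensity n q H) {Δ A₁ : ℝ} {s₁ I : ℕ} (hV : Fintype.card V ≤ n)
    (hp : QPar n q l lam Δ A₁ s₁ I) (G : SimpleGraph β) [Nonempty β] (hedge : 1 ≤ (eIn G univ).card)
    (par : β → β → β) (r : β → β → ℕ) (hT : ∀ z, RootedT G z (par z) (r z)) (Big : Finset β) :
    ((SB G H A₁ I Big).card : ℝ) ≤
      ∑ z, YB (Fintype.card β) (eIn G univ).card *
        ((n : ℝ) ^ Fintype.card β * q ^ (eIn G univ).card) * A₁ ^ (∑ y ∈ univ.filter (fun y => y ∉ Big), ct z (par z) y) := by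
  have hq0 : 0 < q := hp.std.q0
  have hA1 : (1 : ℝ) ≤ A₁ := by
    rw [hp.A₁eq]
    exact one_le_pow₀ (by norm_num)
  have hD0 : (0 : ℝ) ≤ (n : ℝ) * q := by positivity
  set t : β → Finset (Cls I) := fun y =>
    if y ∈ Big then (univ : Finset (Cls I)).filter (fun c => c ≠ Sum.inl 0) else {Sum.inl 0} with ht
  have htmem : ∀ φ ∈ SB G H A₁ I Big, ∀ y, classOf G H A₁ I φ y ∈ t y := by
    intro φ hφ y
    have h := (Finset.mem_filter.1 hφ).2 y
    simp only [ht]
    by_cases hy : y ∈ Big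
    · rw [if_pos hy]
      refine Finset.mem_filter.2 ⟨mem_univ _, fun h0 => (h.1 h0) hy⟩
    · rw [if_neg hy]
      exact Finset.mem_singleton.2 (h.2 hy)
  refine (SB_le hG hV hp G hedge par r hT Big t htmem).trans ?_
  refine Finset.sum_le_sum fun z _ => ?_
  set v := Fintype.card β with hv
  set e := (eIn G univ).card with he
  set P0 : ℝ := (n : ℝ) ^ v * q ^ e with hP0
  have hP00 : 0 ≤ P0 := by positivity
  set S : ℕ := ∑ y ∈ univ.filter (fun y => y ∉ Big), ct z (par z) y with hS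
  set G0 : β → ℝ := fun y =>
    3 * (16 * Real.exp 1) ^ ct z (par z) y * Real.exp (32 * ((nb G y).card : ℝ)) with hG0
  have hG01 : ∀ y, 1 ≤ G0 y := by
    intro y
    have h1 : (1 : ℝ) ≤ (16 * Real.exp 1) ^ ct z (par z) y := one_le_pow₀ exp_ge_one
    have h2 : (1 : ℝ) ≤ Real.exp (32 * ((nb G y).card : ℝ)) := Real.one_le_exp (by positivity)
    simp only [hG0]
    nlinarith [mul_le_mul h1 h2 zero_le_one (by positivity)]
  have hfac : ∀ y, ∑ c ∈ t y, WQ A₁ ((n : ℝ) * q) s₁ (nb G y).card (cf G z (par z) y) (cs G z (par z) y) c ≤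
      if y ∈ Big then G0 y else A₁ ^ ct z (par z) y := by
    intro y
    by_cases hy : y ∈ Big
    · simp only [ht, if_pos hy, hG0]
      have h := nonlow_sum (I := I) (A₁ := A₁) (D := (n : ℝ) * q) (s₁ := s₁)
        (δ := (nb G y).card) (cF := cf G z (par z) y) (cS := cs G z (par z) y)
        hp.s12 hp.A₁eq hD0 hp.Alow
      rw [ct_eq G z (par z) y]
      exact h
    · simp only [ht, if_neg hy, Finset.sum_singleton]
      rw [WQ_low, ct_eq G z (par z) y]
  have hprod : ∏ y, ∑ c ∈ t y, WQ A₁ ((n : ℝ) * q) s₁ (nb G y).card (cf G z (par z) y) (cs G z (par z) y) c ≤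
      ((3 : ℝ) ^ v * (16 * Real.exp 1) ^ e * Real.exp (64 * (e : ℝ))) * A₁ ^ S := by
    have h1 : ∏ y, ∑ c ∈ t y, WQ A₁ ((n : ℝ) * q) s₁ (nb G y).card (cf G z (par z) y) (cs G z (par z) y) c ≤
        ∏ y, (if y ∈ Big then G0 y else A₁ ^ ct z (par z) y) := by
      refine Finset.prod_le_prod (fun y _ => ?_) fun y _ => hfac y
      refine Finset.sum_nonneg fun c _ => WQ_nonneg' hq0 hA1 c
    refine h1.trans ?_
    rw [Finset.prod_ite]
    have h2 : ∏ y ∈ univ.filter (fun y => y ∉ Big), A₁ ^ ct z (par z) y = A₁ ^ S := by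
      rw [Finset.prod_pow_eq_pow_sum]
    rw [h2]
    refine mul_le_mul_of_nonneg_right ?_ (by positivity)
    have hG0pos : ∀ y, 0 ≤ G0 y := fun y => zero_le_one.trans (hG01 y)
    have h3 : ∏ y ∈ univ.filter (fun y => y ∈ Big), G0 y ≤ ∏ y, G0 y := by
      rw [← Finset.prod_filter_mul_prod_filter_not univ (fun y => y ∈ Big) G0]
      have h4 : (1 : ℝ) ≤ ∏ y ∈ univ.filter (fun y => ¬ y ∈ Big), G0 y := by
        have h5 := Finset.prod_le_prod (s := univ.filter (fun y => ¬ y ∈ Big))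
          (f := fun _ => (1 : ℝ)) (g := G0) (fun _ _ => zero_le_one) (fun y _ => hG01 y)
        simpa using h5
      exact le_mul_of_one_le_right (Finset.prod_nonneg fun y _ => hG0pos y) h4
    refine h3.trans ?_
    obtain ⟨hs1, hs2⟩ := sums_le (hT z)
    simp only [hG0]
    rw [Finset.prod_mul_distrib, Finset.prod_mul_distrib, Finset.prod_const,
      Finset.prod_pow_eq_pow_sum, ← Real.exp_sum, Finset.card_univ]
    have h6 : (16 * Real.exp 1) ^ ∑ y, ct z (par z) y ≤ (16 * Real.exp 1) ^ e :=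
      pow_le_pow_right₀ exp_ge_one hs1
    have h7 : Real.exp (∑ y, (32 * ((nb G y).card : ℝ))) ≤ Real.exp (64 * (e : ℝ)) :=
      Real.exp_le_exp.2 hs2
    gcongr
  have hc := const_le v e
  have hA0 : 0 ≤ A₁ ^ S := by positivity
  calc (2 * Real.exp 1 * (v : ℝ) * (4 : ℝ) ^ v * P0 * Real.exp (v : ℝ) * Real.exp (e : ℝ)) *
        ∏ y, ∑ c ∈ t y, WQ A₁ ((n : ℝ) * q) s₁ (nb G y).card (cf G z (par z) y) (cs G z (par z) y) c
      ≤ (2 * Real.exp 1 * (v : ℝ) * (4 : ℝ) ^ v * P0 * Real.exp (v : ℝ) * Real.exp (e : ℝ)) *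
        (((3 : ℝ) ^ v * (16 * Real.exp 1) ^ e * Real.exp (64 * (e : ℝ))) * A₁ ^ S) :=
        mul_le_mul_of_nonneg_left hprod (by positivity)
    _ = (2 * Real.exp 1 * (v : ℝ) * (4 : ℝ) ^ v * Real.exp (v : ℝ) * Real.exp (e : ℝ) *
        ((3 : ℝ) ^ v * (16 * Real.exp 1) ^ e * Real.exp (64 * (e : ℝ)))) * (P0 * A₁ ^ S) := by ring
    _ ≤ YB v e * (P0 * A₁ ^ S) := mul_le_mul_of_nonneg_right hc (by positivity)
    _ = YB v e * P0 * A₁ ^ S := by ring

/-- As `b_bound`, when all members have hubs on `Big`: then `τ y` is a hub on `Big`; `hub_sum` in place of `nonlow_sum`. -/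
theorem b_bound_hub (hG : GoodDensity n q H) {Δ A₁ : ℝ} {s₁ I : ℕ} (hV : Fintype.card V ≤ n)
    (hp : QPar n q l lam Δ A₁ s₁ I) (G : SimpleGraph β) [Nonempty β] (hedge : 1 ≤ (eIn G univ).card)
    (par : β → β → β) (r : β → β → ℕ) (hT : ∀ z, RootedT G z (par z) (r z)) (Big : Finset β)
    (hhub : ∀ φ ∈ SB G H A₁ I Big, ∀ y ∈ Big, ∃ i, classOf G H A₁ I φ y = Sum.inr i) :
    ((SB G H A₁ I Big).card : ℝ) ≤
      ∑ z, YB (Fintype.card β) (eIn G univ).card *
        ((n : ℝ) ^ Fintype.card β * q ^ (eIn G univ).card) * A₁ ^ (∑ y ∈ univ.filter (fun y => y ∉ Big), ct z (par z) y) * (2 / A₁) ^ Big.card := by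
  have hq0 : 0 < q := hp.std.q0
  have hA1 : (1 : ℝ) ≤ A₁ := by
    rw [hp.A₁eq]
    exact one_le_pow₀ (by norm_num)
  have hA0 : 0 < A₁ := by linarith
  have hD0 : (0 : ℝ) ≤ (n : ℝ) * q := by positivity
  set t : β → Finset (Cls I) := fun y =>
    if y ∈ Big then (univ : Finset (Fin I)).image Sum.inr else {Sum.inl 0} with ht
  have htmem : ∀ φ ∈ SB G H A₁ I Big, ∀ y, classOf G H A₁ I φ y ∈ t y := by
    intro φ hφ y
    have h := (Finset.mem_filter.1 hφ).2 y
    simp only [ht]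
    by_cases hy : y ∈ Big
    · rw [if_pos hy]
      obtain ⟨i, hi⟩ := hhub φ hφ y hy
      exact Finset.mem_image.2 ⟨i, mem_univ _, hi.symm⟩
    · rw [if_neg hy]
      exact Finset.mem_singleton.2 (h.2 hy)
  refine (SB_le hG hV hp G hedge par r hT Big t htmem).trans ?_
  refine Finset.sum_le_sum fun z _ => ?_
  set v := Fintype.card β with hv
  set e := (eIn G univ).card with he
  set P0 : ℝ := (n : ℝ) ^ v * q ^ e with hP0
  have hP00 : 0 ≤ P0 := by positivity
  set S : ℕ := ∑ y ∈ univ.filter (fun y => y ∉ Big), ct z (par z) y with hS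
  set B2 : ℝ := 2 / A₁ with hB2
  have hB20 : 0 ≤ B2 := by positivity
  have hfac : ∀ y, ∑ c ∈ t y, WQ A₁ ((n : ℝ) * q) s₁ (nb G y).card (cf G z (par z) y) (cs G z (par z) y) c ≤
      if y ∈ Big then (16 * Real.exp 1) ^ ct z (par z) y * B2 else A₁ ^ ct z (par z) y := by
    intro y
    by_cases hy : y ∈ Big
    · simp only [ht, if_pos hy]
      rw [Finset.sum_image (fun a _ b _ hab => Sum.inr_injective hab)]
      have h := hub_sum (I := I) (A₁ := A₁) (D := (n : ℝ) * q) (s₁ := s₁)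
        (δ := (nb G y).card) (cF := cf G z (par z) y) (cS := cs G z (par z) y)
        hp.s12 hp.A₁eq hD0 hp.Alow
      refine h.trans (mul_le_mul_of_nonneg_right ?_ hB20)
      rw [ct_eq G z (par z) y]
      exact pow_le_pow_right₀ exp_ge_one (Nat.le_add_right _ _)
    · simp only [ht, if_neg hy, Finset.sum_singleton]
      rw [WQ_low, ct_eq G z (par z) y]
  have hprod : ∏ y, ∑ c ∈ t y, WQ A₁ ((n : ℝ) * q) s₁ (nb G y).card (cf G z (par z) y) (cs G z (par z) y) c ≤
      (16 * Real.exp 1) ^ e * B2 ^ Big.card * A₁ ^ S := by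
    have h1 : ∏ y, ∑ c ∈ t y, WQ A₁ ((n : ℝ) * q) s₁ (nb G y).card (cf G z (par z) y) (cs G z (par z) y) c ≤
        ∏ y, (if y ∈ Big then (16 * Real.exp 1) ^ ct z (par z) y * B2 else A₁ ^ ct z (par z) y) := by
      refine Finset.prod_le_prod (fun y _ => ?_) fun y _ => hfac y
      refine Finset.sum_nonneg fun c _ => WQ_nonneg' hq0 hA1 c
    refine h1.trans ?_
    rw [Finset.prod_ite]
    have h2 : ∏ y ∈ univ.filter (fun y => y ∉ Big), A₁ ^ ct z (par z) y = A₁ ^ S := by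
      rw [Finset.prod_pow_eq_pow_sum]
    rw [h2]
    refine mul_le_mul_of_nonneg_right ?_ (by positivity)
    rw [Finset.prod_mul_distrib, Finset.prod_const, Finset.prod_pow_eq_pow_sum]
    have hfil : (univ : Finset β).filter (fun y => y ∈ Big) = Big := by
      ext y; simp
    rw [hfil]
    refine mul_le_mul_of_nonneg_right ?_ (by positivity)
    obtain ⟨hs1, _⟩ := sums_le (hT z)
    refine pow_le_pow_right₀ exp_ge_one (le_trans ?_ hs1)
    exact Finset.sum_le_sum_of_subset (Finset.subset_univ _)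
  have hc := const_le v e
  have hK : (1 : ℝ) ≤ (3 : ℝ) ^ v * Real.exp (64 * (e : ℝ)) := by
    have h1 : (1 : ℝ) ≤ (3 : ℝ) ^ v := one_le_pow₀ (by norm_num)
    have h2 : (1 : ℝ) ≤ Real.exp (64 * (e : ℝ)) := Real.one_le_exp (by positivity)
    nlinarith
  have hc' : 2 * Real.exp 1 * (v : ℝ) * (4 : ℝ) ^ v * Real.exp (v : ℝ) * Real.exp (e : ℝ) *
      (16 * Real.exp 1) ^ e ≤ YB v e := by
    refine le_trans ?_ hc
    have hpos : 0 ≤ 2 * Real.exp 1 * (v : ℝ) * (4 : ℝ) ^ v * Real.exp (v : ℝ) * Real.exp (e : ℝ) *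
        (16 * Real.exp 1) ^ e := by positivity
    calc _ ≤ (2 * Real.exp 1 * (v : ℝ) * (4 : ℝ) ^ v * Real.exp (v : ℝ) * Real.exp (e : ℝ) *
        (16 * Real.exp 1) ^ e) * ((3 : ℝ) ^ v * Real.exp (64 * (e : ℝ))) :=
          le_mul_of_one_le_right hpos hK
      _ = _ := by ring
  calc (2 * Real.exp 1 * (v : ℝ) * (4 : ℝ) ^ v * P0 * Real.exp (v : ℝ) * Real.exp (e : ℝ)) *
        ∏ y, ∑ c ∈ t y, WQ A₁ ((n : ℝ) * q) s₁ (nb G y).card (cf G z (par z) y) (cs G z (par z) y) c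
      ≤ (2 * Real.exp 1 * (v : ℝ) * (4 : ℝ) ^ v * P0 * Real.exp (v : ℝ) * Real.exp (e : ℝ)) *
        ((16 * Real.exp 1) ^ e * B2 ^ Big.card * A₁ ^ S) :=
        mul_le_mul_of_nonneg_left hprod (by positivity)
    _ = (2 * Real.exp 1 * (v : ℝ) * (4 : ℝ) ^ v * Real.exp (v : ℝ) * Real.exp (e : ℝ) *
        (16 * Real.exp 1) ^ e) * (P0 * A₁ ^ S * B2 ^ Big.card) := by ring
    _ ≤ YB v e * (P0 * A₁ ^ S * B2 ^ Big.card) := mul_le_mul_of_nonneg_right hc' (by positivity)
    _ = YB v e * P0 * A₁ ^ S * B2 ^ Big.card := by ring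

/-- A vertex of the dense class has degree at least `A₁ / 8` in `G` (from the definition of `classOf`, `Nat.lt_pow_succ_log_self`). -/
lemma dense_big {G : SimpleGraph β} {A₁ : ℝ} {I : ℕ} {φ : β → V} {y : β}
    (h : classOf G H A₁ I φ y = Sum.inl 1) : A₁ ≤ 8 * ((nb G y).card : ℝ) := by
  unfold classOf at h
  set a := (nb H (φ y)).card with ha
  set inn := ((nb H (φ y)) ∩ univ.image φ).card with hinn
  set δ := (nb G y).card with hδ
  by_cases h1 : (a : ℝ) < A₁
  · rw [if_pos h1] at h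
    exact absurd (Sum.inl_injective h) (by decide)
  rw [if_neg h1] at h
  have h1' : A₁ ≤ (a : ℝ) := not_lt.1 h1
  by_cases h2 : inn < 2 ^ (Nat.log 2 a - 1)
  · rw [if_pos h2] at h
    by_cases h3 : Nat.log 2 a < I
    · rw [dif_pos h3] at h
      exact absurd h (by simp)
    · rw [dif_neg h3] at h
      exact absurd (Sum.inl_injective h) (by decide)
  rw [if_neg h2] at h
  by_cases h3 : inn ≤ 2 * δ
  · have h2' : 2 ^ (Nat.log 2 a - 1) ≤ inn := not_lt.1 h2
    have hlt : a < 2 ^ (Nat.log 2 a + 1) := Nat.lt_pow_succ_log_self (by norm_num) a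
    have hs : 2 ^ (Nat.log 2 a + 1) ≤ 4 * 2 ^ (Nat.log 2 a - 1) := by
      rcases Nat.eq_zero_or_pos (Nat.log 2 a) with h0 | h0
      · rw [h0]; norm_num
      · have h5 : Nat.log 2 a + 1 = (Nat.log 2 a - 1) + 2 := by omega
        rw [h5, pow_add]
        exact le_of_eq (by ring)
    have h8 : a ≤ 8 * δ := by omega
    have h9 : (a : ℝ) ≤ 8 * (δ : ℝ) := by exact_mod_cast h8
    linarith
  · rw [if_neg h3] at h
    exact absurd (Sum.inl_injective h) (by decide)

/-- A vertex of the chord class forces many vertices: `chord_sum`, `classOf_spec (4)`, `v ≤ e + 1`, `N7`: `1020 log (8 Δ) ≤ v`. -/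
lemma chord_big (hG : GoodDensity n q H) {Δ A₁ : ℝ} {s₁ I : ℕ} (hV : Fintype.card V ≤ n)
    (hp : QPar n q l lam Δ A₁ s₁ I) {G : SimpleGraph β} {φ : β → V} (hφ : φ ∈ emb G H)
    {z : β} {par : β → β} {r : β → ℕ} (hT : RootedT G z par r) {y : β}
    (h : classOf G H A₁ I φ y = Sum.inl 2) : 1020 * Real.log (8 * Δ) ≤ Fintype.card β := by
  have hs := hp.std
  have hspec := (classOf_spec hG hV hp G hφ y).2.2.2 h
  have hchord := chord_sum hG hs G hφ
  set x : β → ℕ := fun y => ((nb H (φ y)) ∩ univ.image φ).card - (nb G y).card with hx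
  have hX512 : (512 : ℝ) ≤ ((∑ y, x y : ℕ) : ℝ) := by
    have h1 : x y ≤ ∑ y, x y := Finset.single_le_sum (f := x) (fun _ _ => Nat.zero_le _) (mem_univ y)
    exact_mod_cast hspec.2.trans h1
  have hve : (Fintype.card β : ℝ) ≤ ((eIn G univ).card : ℝ) + 1 := by
    exact_mod_cast v_le_e_add_one hT
  have hlam1 : 1 ≤ lam := hs.lam1
  have hlaml : lam ≤ l := hs.lam_le
  have hN7 := hp.N7
  have hv0 : (0 : ℝ) ≤ Fintype.card β := Nat.cast_nonneg _
  have h1 : (512 : ℝ) * lam ≤ 2 * ((Fintype.card β : ℝ) * l - ((eIn G univ).card : ℝ) * lam) :=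
    (mul_le_mul_of_nonneg_right hX512 (by linarith)).trans hchord
  have h2 : 255 * lam ≤ (Fintype.card β : ℝ) * (l - lam) := by
    nlinarith
  have hpos : 0 < l - lam := by
    by_contra hcon
    have h3 : l - lam = 0 := le_antisymm (not_lt.1 hcon) (by linarith)
    rw [h3] at h2
    nlinarith
  have h4 : 1020 * Real.log (8 * Δ) * (l - lam) ≤ (Fintype.card β : ℝ) * (l - lam) := by
    nlinarith
  exact le_of_mul_le_mul_right h4 hpos

end Vale.Agent.Lib.P064Y
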