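import Vale.Agent.Lib.P064Y.Nums
import Vale.Agent.Lib.P064X.Fiber

/-!
The count over a minimal set with at least two vertices, with `xKb` (notes/P064Y_blueprint.md, part BF).
-/

open Finset

namespace Vale.Agent.Lib.P064Y

open Vale.Agent.Lib.P064
open scoped Classical

variable {V α : Type} [Fintype V] [Fintype α] {H : SimpleGraph V} {F : SimpleGraph α} {n : ℕ}
  {q : ℝ}

/-- Copy the part with at least two vertices of the proof of `x_fiber` (Lib/P064X/Fiber.lean), with `xb_final_A`, `xb_final_B`. -/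
theorem y_fiber_block (hG : GoodDensity n q H) (hn : 2 ≤ n) (hV : Fintype.card V ≤ n) (hq0 : 0 < q)
    (hqe : q ≤ Real.exp (-1)) (hL : 1 ≤ Real.log n) (hQ16 : 16 ≤ - Real.log q)
    (hD : 1 ≤ (n : ℝ) * q) (hD2 : (Real.exp 1 * ((n : ℝ) * q)) ^ 2 < n)
    {E I : Finset α} (hdisj : Disjoint I E) (hne : I.Nonempty) (ha2 : 2 ≤ I.card)
    (hτ : 1 ≤ (n : ℝ) ^ I.card * (Real.exp 1 * q) ^ eT F (E ∪ I) I)
    (hmin : ∀ J ⊆ I, J.Nonempty → J ≠ I → Low n q F (E ∪ I) J)
    {S : Finset (α → V)} (hinj : ∀ φ ∈ S, Function.Injective φ)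
    (hhom : ∀ φ ∈ S, ∀ u v, F.Adj u v → H.Adj (φ u) (φ v))
    {φ₀ : α → V} (hagree : ∀ φ ∈ S, ∀ x ∈ E, φ x = φ₀ x) :
    ((S.image (proj (E ∪ I))).card : ℝ) ≤
      xA ^ I.card * xKb n q ^ (newE F E I).card *
        ((n : ℝ) ^ I.card * q ^ (newE F E I).card) := by
  have hn2 : (2 : ℝ) ≤ n := by exact_mod_cast hn
  have hn1 : (1 : ℝ) ≤ n := by linarith
  have hn0 : (0 : ℝ) < n := by linarith
  have hn' : 1 ≤ n := by omega
  have hL0 : 0 ≤ Real.log n := by linarith
  have hQ2 := spQ_of_D2 hn hq0 hD hD2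
  have hQ1 : 1 < - Real.log q := by linarith
  have hq1 : q ≤ 1 := hqe.trans (by rw [Real.exp_le_one_iff]; norm_num)
  have hD0 : 0 < (n : ℝ) * q := by linarith
  have hg0 : 0 ≤ Real.log ((n : ℝ) * q) := Real.log_nonneg hD
  have hKap : 0 ≤ xKap n q := by
    unfold xKap
    have h1 : 0 ≤ Real.log (Real.log n) := Real.log_nonneg hL
    have h2 : 0 ≤ - Real.log q := by linarith
    positivity
  have hKb0 : 0 ≤ xKb n q := by
    have := one_le_xKb hKap
    linarith
  have hA1 := one_le_xA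
  have hE2 : 0 < Real.exp 2 := Real.exp_pos _
  have hτ' := hτ
  rw [eT_union_self hdisj] at hτ'
  by_cases hS : S.Nonempty
  swap
  · rw [Finset.not_nonempty_iff_eq_empty] at hS
    rw [hS]
    simp only [Finset.image_empty, Finset.card_empty, Nat.cast_zero]
    have hA0 : 0 ≤ xA := by linarith
    positivity
  have ha1 : 1 ≤ I.card := Finset.card_pos.2 hne
  have heq1 : Real.exp 1 * q ≤ 1 := by
    have h1 : Real.exp 1 * q ≤ Real.exp 1 * Real.exp (-1) :=
      mul_le_mul_of_nonneg_left hqe (Real.exp_pos _).le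
    rw [← Real.exp_add] at h1
    simpa using h1
  have heq0 : 0 < Real.exp 1 * q := by positivity
  -- at least two vertices
  have hconn := conn_of_min hn' hq0 hqe hdisj hτ hmin
  have hdeg : ∀ w ∈ I, 2 ≤ dW F (E ∪ I) w := by
    intro w hw
    have hsub : ({w} : Finset α) ⊆ I := Finset.singleton_subset_iff.2 hw
    have hne' : ({w} : Finset α) ≠ I := by
      intro h
      rw [← h, Finset.card_singleton] at ha2
      omega
    have := low_card_lt hq0 hqe hD (hmin {w} hsub (Finset.singleton_nonempty w) hne')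
    rw [Finset.card_singleton] at this
    exact this
  have hsum := sum_dW_add_core (F := F) E I hdisj
  have h2a : 2 * I.card ≤ ∑ w ∈ I, dW F (E ∪ I) w := by
    calc 2 * I.card = ∑ _w ∈ I, 2 := by simp [mul_comm]
      _ ≤ _ := Finset.sum_le_sum hdeg
  have ham : I.card ≤ (newE F E I).card := by omega
  obtain ⟨x, hm⟩ : ∃ x, (newE F E I).card = I.card + x := ⟨_, (Nat.add_sub_cancel' ham).symm⟩
  have hb2x : (core F E I).card ≤ 2 * x := by omega
  have hm1 : 1 ≤ (newE F E I).card := by omega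
  have hxa : (x : ℝ) * (- Real.log q - 1) ≤ I.card * (spG n q + 1) :=
    tau_excess hn' hq0 (by rw [← hm]; exact hτ')
  have hρexp : Real.exp (-((newE F E I).card : ℝ)) ≤ (n : ℝ) ^ I.card * q ^ (newE F E I).card :=
    tau_exp hq0 hτ'
  have hρ0 : 0 ≤ (n : ℝ) ^ I.card * q ^ (newE F E I).card := by positivity
  obtain ⟨w, M, c, T, hw, hs, hT, h2T, hcT, hμ2⟩ := x_params hn' hq0 hqe hG hD hQ2
  have hμ : 0 < xMu n q := by
    unfold xMu
    have h2 : 0 < - Real.log q := by linarith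
    have h3 : 0 < Real.log ((n : ℝ) * q) + 1 := by linarith
    positivity
  have hexp := x_pinned_exp hq0 hn' hD hL (by linarith : (1 : ℝ) ≤ - Real.log q)
  have hpin : ∀ x' ∈ I, ∀ y,
      (((S.filter (fun φ => φ x' = y)).image (proj (E ∪ I))).card : ℝ) ≤
        Real.exp (2 * ((newE F E I).card : ℝ)) * xCc 192 ^ (newE F E I).card *
          Real.exp ((I.card : ℝ) * ((2 / 3) * xKap n q)) := by
    intro x' hx' y
    have h1 := x_pinned hG hn' hV hq0 hqe hD hL hw hs hT h2T (D' := 192) (by norm_num) hcT hμ hμ2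
      hdisj hmin hinj hhom hagree hx' y
    rw [mul_div_assoc, hexp] at h1
    exact h1
  have hP0 : 0 ≤ Real.exp (2 * ((newE F E I).card : ℝ)) * xCc 192 ^ (newE F E I).card *
      Real.exp ((I.card : ℝ) * ((2 / 3) * xKap n q)) := by
    unfold xCc
    positivity
  obtain ⟨t, ht1, hdich, hcount⟩ := cover_pinned hG hq0 hq1 hn' hne hdisj hm1 S hS hinj hhom
    hagree hP0 hpin
  refine hcount.trans ?_
  have ht0 : (0 : ℝ) ≤ t := Nat.cast_nonneg t
  have ht1' : (1 : ℝ) ≤ t := by exact_mod_cast ht1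
  rcases hdich with h | h
  · -- at least one attachment, so one excess edge
    have hb1 : 1 ≤ (core F E I).card := by
      by_contra hcon
      have hb0 : (core F E I).card = 0 := by omega
      rw [hb0] at h
      simp only [Nat.cast_zero, zero_mul] at h
      linarith
    have hx1 : 1 ≤ x := by omega
    have hx1' : (1 : ℝ) ≤ x := by exact_mod_cast hx1
    have hxa' : - Real.log q - 1 ≤ (I.card : ℝ) * (Real.log ((n : ℝ) * q) + 1) := by
      have h3 : 0 ≤ - Real.log q - 1 := by linarith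
      have h4 : 1 * (- Real.log q - 1) ≤ (x : ℝ) * (- Real.log q - 1) :=
        mul_le_mul_of_nonneg_right hx1' h3
      have h5 : spG n q = Real.log ((n : ℝ) * q) := rfl
      rw [h5] at hxa
      linarith
    exact xb_final_B hn' hq0 hD hL hQ16 ha1 (by omega) (by omega) hρexp ht0 hxa' h
  · exact xb_final_A hKap ha1 ham hρ0 ht0 h

/-- As in the proof of `x_fiber`: `hdeg`, `sum_dW_add_core`, `ham`, `tau_excess`. -/
theorem y_block_excess (hn : 2 ≤ n) (hq0 : 0 < q) (hqe : q ≤ Real.exp (-1)) (hD : 1 ≤ (n : ℝ) * q)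
    {E I : Finset α} (hdisj : Disjoint I E) (ha2 : 2 ≤ I.card)
    (hτ : 1 ≤ (n : ℝ) ^ I.card * (Real.exp 1 * q) ^ eT F (E ∪ I) I)
    (hmin : ∀ J ⊆ I, J.Nonempty → J ≠ I → Low n q F (E ∪ I) J) :
    (∀ w ∈ I, 2 ≤ dW F (E ∪ I) w) ∧ ∃ x : ℕ, (newE F E I).card = I.card + x ∧
      (x : ℝ) * (- Real.log q - 1) ≤ (I.card : ℝ) * (Real.log ((n : ℝ) * q) + 1) := by
  have hn' : 1 ≤ n := by omega
  have hτ' := hτ
  rw [eT_union_self hdisj] at hτ'
  have hdeg : ∀ w ∈ I, 2 ≤ dW F (E ∪ I) w := by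
    intro w hw
    have hsub : ({w} : Finset α) ⊆ I := Finset.singleton_subset_iff.2 hw
    have hne' : ({w} : Finset α) ≠ I := by
      intro h
      rw [← h, Finset.card_singleton] at ha2
      omega
    have := low_card_lt hq0 hqe hD (hmin {w} hsub (Finset.singleton_nonempty w) hne')
    rw [Finset.card_singleton] at this
    exact this
  have hsum := sum_dW_add_core (F := F) E I hdisj
  have h2a : 2 * I.card ≤ ∑ w ∈ I, dW F (E ∪ I) w := by
    calc 2 * I.card = ∑ _w ∈ I, 2 := by simp [mul_comm]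
      _ ≤ _ := Finset.sum_le_sum hdeg
  have ham : I.card ≤ (newE F E I).card := by omega
  obtain ⟨x, hm⟩ : ∃ x, (newE F E I).card = I.card + x := ⟨_, (Nat.add_sub_cancel' ham).symm⟩
  refine ⟨hdeg, x, hm, ?_⟩
  have hxa : (x : ℝ) * (- Real.log q - 1) ≤ I.card * (spG n q + 1) :=
    tau_excess hn' hq0 (by rw [← hm]; exact hτ')
  exact hxa

end Vale.Agent.Lib.P064Y
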