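import Vale.Agent.Lib.P064Y.ABound
import Vale.Agent.Lib.P064Y.BBound

/-!
Connected graphs: the minimum of the two bounds (notes/P064Y_blueprint.md, part CY).
-/

open Finset

namespace Vale.Agent.Lib.P064Y

open Vale.Agent.Lib.P064 Vale.Agent.Lib.P064E Vale.Agent.Lib.P064U Vale.Agent.Lib.P064Q
open scoped Classical

variable {V β : Type} [Fintype V] [Fintype β] {H : SimpleGraph V} {n : ℕ} {q l lam : ℝ}

/-- The exponent per edge: the harmonic mean of `a = log (Δ / D)`, `b = log A₁`, halved. -/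
noncomputable def yh (a b : ℝ) : ℝ := a * b / (a + b)

/-- `min (P a) (Q b) ≤ (P + Q) yh a b`. -/
lemma min_le_yh {a b P Q : ℝ} (ha : 0 ≤ a) (hb : 0 < b) (hP : 0 ≤ P) (hQ : 0 ≤ Q) :
    min (P * a) (Q * b) ≤ (P + Q) * yh a b := by
  have hab : 0 < a + b := by linarith
  have h1 : min (P * a) (Q * b) ≤ P * a := min_le_left _ _
  have h2 : min (P * a) (Q * b) ≤ Q * b := min_le_right _ _
  have key : min (P * a) (Q * b) * (a + b) ≤ (P + Q) * (a * b) := by
    nlinarith [mul_le_mul_of_nonneg_right h2 ha, mul_le_mul_of_nonneg_right h1 hb.le]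
  unfold yh
  rw [← mul_div_assoc, le_div_iff₀ hab]
  exact key

lemma yh_le_right {a b : ℝ} (ha : 0 ≤ a) (hb : 0 < b) : yh a b ≤ b := by
  have hab : 0 < a + b := by linarith
  unfold yh
  rw [div_le_iff₀ hab]
  nlinarith [mul_pos hb hb]

lemma yh_nonneg {a b : ℝ} (ha : 0 ≤ a) (hb : 0 < b) : 0 ≤ yh a b := by
  have hab : 0 < a + b := by linarith
  unfold yh
  positivity

/-- The minimum of two bounds. -/
private lemma two_bounds {S C R a b : ℝ} {P Q : ℕ} (ha : 0 ≤ a) (hb : 0 < b) (hC : 0 ≤ C)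
    (hR : 0 ≤ R) (h1 : S ≤ C * R * Real.exp ((P : ℝ) * a)) (h2 : S ≤ C * R * Real.exp ((Q : ℝ) * b)) :
    S ≤ C * R * Real.exp (((P : ℝ) + (Q : ℝ)) * yh a b) := by
  have hmin := min_le_yh ha hb (Nat.cast_nonneg P) (Nat.cast_nonneg Q)
  have hCR : 0 ≤ C * R := mul_nonneg hC hR
  rcases min_le_iff.1 hmin with h | h
  · exact h1.trans (mul_le_mul_of_nonneg_left (Real.exp_le_exp.2 h) hCR)
  · exact h2.trans (mul_le_mul_of_nonneg_left (Real.exp_le_exp.2 h) hCR)

/-- Numeric assumptions on top of `QPar`. -/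
structure YPar (n : ℕ) (q l lam Δ A₁ : ℝ) (s₁ I : ℕ) : Prop extends QPar n q l lam Δ A₁ s₁ I where
  n2 : 2 ≤ n
  qe : q ≤ Real.exp (-1)
  Q16 : 16 ≤ - Real.log q
  D2 : (Real.exp 1 * ((n : ℝ) * q)) ^ 2 < n
  kap0 : 0 ≤ xKap n q
  kap1 : xKap n q ≤ 1
  A8192 : A₁ ≤ 8192 * ((n : ℝ) * q)
  XN : (Real.log ((n : ℝ) * q) + 1) * (Real.log A₁ + 1) ≤ - Real.log q - 1

private lemma xb_const {n : ℕ} {q g₀ : ℝ} {v e : ℕ} (hk0 : 0 ≤ xKap n q) (hk1 : xKap n q ≤ 1)
    (hg1 : 1 ≤ g₀) (hg8 : g₀ ≤ 8192) :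
    xA ^ v * xKb n q ^ e * g₀ ^ (2 * e) ≤ Real.exp (8 * (v : ℝ) + 61 * (e : ℝ)) := by
  have h1 : xA ^ v = Real.exp (8 * (v : ℝ)) := by
    unfold xA
    rw [← Real.exp_nat_mul]
    congr 1
    ring
  have h2 : xKb n q ≤ Real.exp 41 := by
    unfold xKb xC
    rw [← Real.exp_add]
    exact Real.exp_le_exp.2 (by linarith)
  have h2' : 0 ≤ xKb n q := by
    unfold xKb xC
    positivity
  have h3 : xKb n q ^ e ≤ Real.exp (41 * (e : ℝ)) := by
    calc xKb n q ^ e ≤ Real.exp 41 ^ e := pow_le_pow_left₀ h2' h2 _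
      _ = Real.exp (41 * (e : ℝ)) := by
        rw [← Real.exp_nat_mul]
        congr 1
        ring
  have h4 : g₀ ^ (2 * e) ≤ Real.exp (20 * (e : ℝ)) := by
    have h5 : (8192 : ℝ) ≤ Real.exp 10 := by
      have h6 : Real.exp 10 = Real.exp 1 ^ 10 := by
        rw [← Real.exp_nat_mul]
        norm_num
      rw [h6]
      have h7 : (2.7 : ℝ) ≤ Real.exp 1 := by
        have := Real.exp_one_gt_d9
        linarith
      calc (8192 : ℝ) ≤ (2.7 : ℝ) ^ 10 := by norm_num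
        _ ≤ Real.exp 1 ^ 10 := pow_le_pow_left₀ (by norm_num) h7 _
    calc g₀ ^ (2 * e) ≤ Real.exp 10 ^ (2 * e) :=
          pow_le_pow_left₀ (by linarith) (hg8.trans h5) _
      _ = Real.exp (20 * (e : ℝ)) := by
        rw [← Real.exp_nat_mul]
        congr 1
        push_cast
        ring
  have hg0 : 0 ≤ g₀ ^ (2 * e) := by positivity
  calc xA ^ v * xKb n q ^ e * g₀ ^ (2 * e)
      = xA ^ v * (xKb n q ^ e * g₀ ^ (2 * e)) := by ring
    _ ≤ Real.exp (8 * (v : ℝ)) * (Real.exp (41 * (e : ℝ)) * Real.exp (20 * (e : ℝ))) := by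
        rw [h1]
        gcongr
    _ = Real.exp (8 * (v : ℝ) + 61 * (e : ℝ)) := by
        rw [← Real.exp_add, ← Real.exp_add]
        congr 1
        ring

private lemma yb_const {v e : ℕ} (he : 1 ≤ e) :
    (v : ℝ) * YB v e ≤ Real.exp (7 * (v : ℝ) + 71 * (e : ℝ)) := by
  have he1R : (1 : ℝ) ≤ e := by exact_mod_cast he
  have h1 : (v : ℝ) ≤ Real.exp (v : ℝ) := by
    have := Real.add_one_le_exp (v : ℝ)
    linarith
  unfold YB
  calc (v : ℝ) * Real.exp (2 + 6 * (v : ℝ) + 69 * (e : ℝ))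
      ≤ Real.exp (v : ℝ) * Real.exp (2 + 6 * (v : ℝ) + 69 * (e : ℝ)) :=
        mul_le_mul_of_nonneg_right h1 (Real.exp_pos _).le
    _ = Real.exp ((v : ℝ) + (2 + 6 * (v : ℝ) + 69 * (e : ℝ))) := (Real.exp_add _ _).symm
    _ ≤ _ := Real.exp_le_exp.2 (by linarith)

private lemma count_Q {G : SimpleGraph β} {z : β} {par : β → β} {r : β → ℕ}
    (hT : RootedT G z par r) (Big : Finset β) :
    (∑ y ∈ univ.filter (fun y => y ∉ Big), ct z par y) + (univ.filter (fun y => y ∉ Big)).card ≤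
      ∑ y ∈ univ.filter (fun y => y ∉ Big), (nb G y).card + 1 := by
  have h1 : ∀ y, ct z par y + 1 ≤ (nb G y).card + (if y = z then 1 else 0) := by
    intro y
    by_cases hy : y = z
    · subst hy
      simp only [if_true]
      have := ct_root_le hT
      omega
    · simp only [hy, if_false, add_zero]
      exact ct_add_one_le hT hy
  have h2 := Finset.sum_le_sum (s := univ.filter (fun y => y ∉ Big)) (fun y _ => h1 y)
  rw [Finset.sum_add_distrib, Finset.sum_add_distrib, Finset.sum_const, smul_eq_mul, mul_one] at h2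
  have h3 : ∑ y ∈ univ.filter (fun y => y ∉ Big), (if y = z then 1 else 0) ≤ 1 := by
    rw [Finset.sum_ite_eq']
    split_ifs <;> omega
  omega

private lemma count_all {G : SimpleGraph β} (Big : Finset β) {P Q X Rc : ℕ}
    (h1 : P + Big.card ≤ ∑ y ∈ Big, (nb G y).card + Rc)
    (h2 : Rc + (eIn G univ).card = Fintype.card β + X)
    (h3 : Q + (univ.filter (fun y => y ∉ Big)).card ≤
      ∑ y ∈ univ.filter (fun y => y ∉ Big), (nb G y).card + 1) :
    P + Q ≤ (eIn G univ).card + X + 1 := by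
  have hsumdeg := sum_deg_le (F := G)
  have hsplit : ∑ y ∈ Big, (nb G y).card + ∑ y ∈ univ.filter (fun y => y ∉ Big), (nb G y).card =
      ∑ y, (nb G y).card := by
    rw [← Finset.sum_filter_add_sum_filter_not univ (fun y => y ∈ Big)]
    congr 2
    ext y
    simp
  have hcardsplit : Big.card + (univ.filter (fun y => y ∉ Big)).card = Fintype.card β := by
    have := Finset.card_filter_add_card_filter_not (s := (univ : Finset β)) (fun y => y ∈ Big)
    have h4 : univ.filter (fun y => y ∈ Big) = Big := by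
      ext y
      simp
    rw [h4] at this
    rw [this, Finset.card_univ]
  omega

private lemma num_final {R h t : ℝ} {v e : ℕ} (hR : 0 ≤ R) (ht : t ≤ (e : ℝ) * h + (v : ℝ) + (e : ℝ)) :
    Real.exp (8 * (v : ℝ) + 72 * (e : ℝ)) * R * Real.exp t ≤
      Real.exp (9 * (v : ℝ) + 74 * (e : ℝ)) * Real.exp h ^ e * R := by
  have hv0 : (0 : ℝ) ≤ v := Nat.cast_nonneg _
  have he0 : (0 : ℝ) ≤ e := Nat.cast_nonneg _
  rw [← Real.exp_nat_mul]
  calc Real.exp (8 * (v : ℝ) + 72 * (e : ℝ)) * R * Real.exp t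
      = Real.exp (8 * (v : ℝ) + 72 * (e : ℝ) + t) * R := by
        rw [Real.exp_add (8 * (v : ℝ) + 72 * (e : ℝ)) t]
        ring
    _ ≤ Real.exp (9 * (v : ℝ) + 74 * (e : ℝ) + (e : ℝ) * h) * R :=
        mul_le_mul_of_nonneg_right (Real.exp_le_exp.2 (by linarith)) hR
    _ = _ := by rw [Real.exp_add (9 * (v : ℝ) + 74 * (e : ℝ)) ((e : ℝ) * h)]

private lemma num_big {S R a b : ℝ} {v e P Q X : ℕ} (ha : 0 ≤ a) (hb : 0 < b) (hR : 0 ≤ R)
    (hA : S ≤ Real.exp (8 * (v : ℝ) + 72 * (e : ℝ)) * R * Real.exp ((P : ℝ) * a))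
    (hB : S ≤ Real.exp (8 * (v : ℝ) + 72 * (e : ℝ)) * R * Real.exp ((Q : ℝ) * b))
    (hPQ : P + Q ≤ e + X + 1) (hX : (X : ℝ) * (b + 1) ≤ v) (hhe : yh a b ≤ e) :
    S ≤ Real.exp (9 * (v : ℝ) + 74 * (e : ℝ)) * Real.exp (yh a b) ^ e * R := by
  have hh0 := yh_nonneg ha hb
  have hhb := yh_le_right ha hb
  have h1 := two_bounds ha hb (Real.exp_pos _).le hR hA hB
  refine h1.trans (num_final hR ?_)
  have hPQR : (P : ℝ) + (Q : ℝ) ≤ (e : ℝ) + (X : ℝ) + 1 := by exact_mod_cast hPQ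
  have h2 : ((P : ℝ) + (Q : ℝ)) * yh a b ≤ ((e : ℝ) + (X : ℝ) + 1) * yh a b :=
    mul_le_mul_of_nonneg_right hPQR hh0
  have hX0 : (0 : ℝ) ≤ X := Nat.cast_nonneg _
  have h3 : (X : ℝ) * yh a b ≤ (X : ℝ) * (b + 1) := mul_le_mul_of_nonneg_left (by linarith) hX0
  nlinarith

private lemma num_tiny {S R a A₁ Cv : ℝ} {v e P Q : ℕ} (ha : 0 ≤ a) (hA1 : 2 ≤ A₁) (hb : 0 < Real.log A₁)
    (hR : 0 ≤ R) (hCv0 : 0 ≤ Cv) (hCv : Cv * 2 ≤ Real.exp (8 * (v : ℝ) + 72 * (e : ℝ)))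
    (hA : S ≤ Real.exp (8 * (v : ℝ) + 72 * (e : ℝ)) * R * Real.exp ((P : ℝ) * a))
    (hB : S ≤ Cv * R * (A₁ ^ Q * (2 / A₁))) (hPQ : P + Q ≤ e + 1) :
    S ≤ Real.exp (9 * (v : ℝ) + 74 * (e : ℝ)) * Real.exp (yh a (Real.log A₁)) ^ e * R := by
  have hh0 := yh_nonneg ha hb
  have hA0 : 0 < A₁ := by linarith
  have he0 : (0 : ℝ) ≤ e := Nat.cast_nonneg _
  have hv0 : (0 : ℝ) ≤ v := Nat.cast_nonneg _
  rcases Nat.eq_zero_or_pos Q with hQ0 | hQ0
  · rw [hQ0, pow_zero, one_mul] at hB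
    have h2A1 : 2 / A₁ ≤ 1 := by
      rw [div_le_one hA0]
      linarith
    have h3 : S ≤ Real.exp (8 * (v : ℝ) + 72 * (e : ℝ)) * R * Real.exp 0 := by
      rw [Real.exp_zero, mul_one]
      calc S ≤ _ := hB
        _ ≤ Cv * R * 1 := by gcongr
        _ = Cv * R := mul_one _
        _ ≤ (Cv * 2) * R := by nlinarith [mul_nonneg hCv0 hR]
        _ ≤ _ := mul_le_mul_of_nonneg_right hCv hR
    refine h3.trans (num_final hR ?_)
    have : 0 ≤ (e : ℝ) * yh a (Real.log A₁) := mul_nonneg he0 hh0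
    linarith
  · obtain ⟨Q', hQ'⟩ : ∃ Q', Q = Q' + 1 := ⟨Q - 1, by omega⟩
    have hApos : A₁ ^ Q' = Real.exp ((Q' : ℝ) * Real.log A₁) := by
      rw [Real.exp_nat_mul, Real.exp_log hA0]
    have hB3 : S ≤ Real.exp (8 * (v : ℝ) + 72 * (e : ℝ)) * R * Real.exp ((Q' : ℝ) * Real.log A₁) := by
      refine hB.trans ?_
      rw [← hApos]
      have h1 : A₁ ^ Q * (2 / A₁) = 2 * A₁ ^ Q' := by
        rw [hQ', pow_succ]
        field_simp
      rw [h1]
      have hA0Q : 0 ≤ A₁ ^ Q' := by positivity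
      calc Cv * R * (2 * A₁ ^ Q') = (Cv * 2) * R * A₁ ^ Q' := by ring
        _ ≤ _ := by gcongr
    have h1 := two_bounds ha hb (Real.exp_pos _).le hR hA hB3
    refine h1.trans (num_final hR ?_)
    have hPQ' : P + Q' ≤ e := by omega
    have hPQR : (P : ℝ) + (Q' : ℝ) ≤ (e : ℝ) := by exact_mod_cast hPQ'
    have h2 : ((P : ℝ) + (Q' : ℝ)) * yh a (Real.log A₁) ≤ (e : ℝ) * yh a (Real.log A₁) :=
      mul_le_mul_of_nonneg_right hPQR hh0
    linarith

private lemma log_lt_div {x : ℝ} (hx : 4096 ≤ x) : Real.log x < x / 16 := by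
  have hx0 : 0 < x := by linarith
  have h5 := Real.log_le_sub_one_of_pos (x := x / 32) (by positivity)
  rw [Real.log_div hx0.ne' (by norm_num)] at h5
  have h6 : Real.log 32 ≤ 4 := by
    rw [Real.log_le_iff_le_exp (by norm_num)]
    have h7 : Real.exp 4 = Real.exp 1 ^ 4 := by
      rw [← Real.exp_nat_mul]
      norm_num
    rw [h7]
    have h8 : (2.7 : ℝ) ≤ Real.exp 1 := by
      have := Real.exp_one_gt_d9
      linarith
    calc (32 : ℝ) ≤ (2.7 : ℝ) ^ 4 := by norm_num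
      _ ≤ _ := pow_le_pow_left₀ (by norm_num) h8 _
  linarith

/-- In a tiny graph, all vertices of class other than low are hubs. -/
private lemma hub_tiny (hG : GoodDensity n q H) {Δ A₁ : ℝ} {s₁ I : ℕ} (hV : Fintype.card V ≤ n)
    (hQP : QPar n q l lam Δ A₁ s₁ I) {G : SimpleGraph β} {z : β} {par : β → β} {r : β → ℕ}
    (hT : RootedT G z par r) {φ : β → V} (hφ : φ ∈ emb G H) {y : β}
    (hnl : classOf G H A₁ I φ y ≠ Sum.inl 0) (hdegΔ : ((nb H (φ y)).card : ℝ) ≤ Δ)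
    (hvb : (Fintype.card β : ℝ) < Real.log A₁ + 1) (heb : ((eIn G univ).card : ℝ) < Real.log A₁) :
    ∃ i, classOf G H A₁ I φ y = Sum.inr i := by
  have hA4096 : (4096 : ℝ) ≤ A₁ := by
    have h1 := hQP.Alow
    have h2 := hQP.D1
    linarith
  have hA0 : 0 < A₁ := by linarith
  have hAle : A₁ ≤ Δ := by
    by_contra hlt
    have hlt' : Δ < A₁ := not_le.1 hlt
    have h1 : ((nb H (φ y)).card : ℝ) < A₁ := hdegΔ.trans_lt hlt'
    apply hnl
    unfold classOf
    rw [if_pos h1]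
  rcases hc : classOf G H A₁ I φ y with k | i
  · exfalso
    have hk : k = 0 ∨ k = 1 ∨ k = 2 := by
      fin_cases k <;> simp
    rcases hk with rfl | rfl | rfl
    · exact hnl hc
    · have h1 := dense_big hc
      have h2 : (nb G y).card ≤ 2 * (eIn G univ).card :=
        (Finset.single_le_sum (f := fun y => (nb G y).card) (fun _ _ => Nat.zero_le _)
          (mem_univ y)).trans sum_deg_le
      have h3 : ((nb G y).card : ℝ) ≤ 2 * ((eIn G univ).card : ℝ) := by exact_mod_cast h2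
      have h4 := log_lt_div hA4096
      linarith
    · have h1 := chord_big hG hV hQP hφ hT hc
      have h2 : Real.log A₁ ≤ Real.log (8 * Δ) := Real.log_le_log hA0 (by linarith)
      have h3 : 1 ≤ Real.log (8 * Δ) := by
        rw [Real.le_log_iff_exp_le (by linarith)]
        have := Real.exp_one_lt_d9
        linarith
      linarith
  · exact ⟨i, rfl⟩

private lemma exists_trees {G : SimpleGraph β}
    (hconn : ∀ D : Finset β, D.Nonempty → D ≠ univ → ∃ u ∈ D, ∃ w, w ∉ D ∧ G.Adj u w) (z : β) :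
    ∃ (par : β → β) (r : β → ℕ), RootedT G z par r := by
  obtain ⟨par, r, h1, h2⟩ := exists_par_rank (F := G) (I := univ) (x := z) (mem_univ z)
    (fun D hD _ hne => by
      obtain ⟨u, hu, w, hw, huw⟩ := hconn D hD hne
      exact ⟨u, hu, w, by simp [hw], huw⟩)
  exact ⟨par, r, ⟨h1, fun v hv => ⟨(h2 v (mem_univ v) hv).2.1, (h2 v (mem_univ v) hv).2.2⟩⟩⟩

/-- The excess is small: `X (log A₁ + 1) ≤ v`. -/
private lemma excess_le {X v : ℕ} {g b lq : ℝ} (hg : 0 < g + 1) (hXN : (g + 1) * (b + 1) ≤ lq - 1)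
    (hP3 : (X : ℝ) * (lq - 1) ≤ (v : ℝ) * (g + 1)) : (X : ℝ) * (b + 1) ≤ v := by
  have hX0 : (0 : ℝ) ≤ X := Nat.cast_nonneg _
  have h1 : (X : ℝ) * ((g + 1) * (b + 1)) ≤ (v : ℝ) * (g + 1) :=
    (mul_le_mul_of_nonneg_left hXN hX0).trans hP3
  have h2 : ((X : ℝ) * (b + 1)) * (g + 1) ≤ (v : ℝ) * (g + 1) := by
    calc _ = (X : ℝ) * ((g + 1) * (b + 1)) := by ring
      _ ≤ _ := h1
  exact le_of_mul_le_mul_right h2 hg

/-- The case without vertices of class other than low. -/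
private lemma big_empty (hG : GoodDensity n q H) {Δ A₁ : ℝ} {s₁ I : ℕ} (hV : Fintype.card V ≤ n)
    (hp : YPar n q l lam Δ A₁ s₁ I) (G : SimpleGraph β) (hne : (SB G H A₁ I ∅).Nonempty) :
    ((SB G H A₁ I ∅).card : ℝ) ≤
      Real.exp (8 * (Fintype.card β : ℝ) + 61 * ((eIn G univ).card : ℝ)) *
        ((n : ℝ) ^ Fintype.card β * q ^ (eIn G univ).card) := by
  have hQP : QPar n q l lam Δ A₁ s₁ I := hp.toQPar
  have hq0 : 0 < q := hQP.std.q0
  have hD1 : 1 ≤ (n : ℝ) * q := hQP.D1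
  have hD0 : 0 < (n : ℝ) * q := by linarith
  have hL1 : 1 ≤ Real.log n := by rw [← hQP.std.l_eq]; exact hQP.std.l1
  have hg₀1 : 1 ≤ A₁ / ((n : ℝ) * q) := by
    rw [one_le_div hD0]
    have := hQP.Alow
    linarith
  have hg₀8 : A₁ / ((n : ℝ) * q) ≤ 8192 := by
    rw [div_le_iff₀ hD0]
    exact hp.A8192
  obtain ⟨P, X, Rc, -, -, -, hA⟩ := a_bound (F := G) hG hp.n2 hV hq0 hp.qe hL1 hp.Q16 hD1 hp.D2
    (SB G H A₁ I ∅) hne (fun φ hφ => (mem_emb.1 (Finset.mem_filter.1 hφ).1).1)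
    (fun φ hφ => (mem_emb.1 (Finset.mem_filter.1 hφ).1).2) ∅
    (g₀ := A₁ / ((n : ℝ) * q)) (G₀ := 1) hg₀1 le_rfl (by
      intro φ hφ y
      simp only [Finset.notMem_empty, if_false]
      rw [div_mul_cancel₀ _ hD0.ne']
      have hc := ((Finset.mem_filter.1 hφ).2 y).2 (Finset.notMem_empty y)
      have hs := (classOf_spec hG hV hQP G (Finset.mem_filter.1 hφ).1 y).1
      rw [hc] at hs
      simpa [fQ] using hs)
  rw [one_pow, mul_one] at hA
  refine hA.trans ?_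
  have h1 := xb_const (v := Fintype.card β) (e := (eIn G univ).card) hp.kap0 hp.kap1 hg₀1 hg₀8
  have hR0 : 0 ≤ (n : ℝ) ^ Fintype.card β * q ^ (eIn G univ).card := by positivity
  calc _ = (xA ^ Fintype.card β * xKb n q ^ (eIn G univ).card *
        (A₁ / ((n : ℝ) * q)) ^ (2 * (eIn G univ).card)) *
        ((n : ℝ) ^ Fintype.card β * q ^ (eIn G univ).card) := by ring
    _ ≤ _ := mul_le_mul_of_nonneg_right h1 hR0

/-- The first bound, for `Big` arbitrary. -/
private lemma big_first (hG : GoodDensity n q H) {Δ A₁ : ℝ} {s₁ I : ℕ} (hV : Fintype.card V ≤ n)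
    (hp : YPar n q l lam Δ A₁ s₁ I) (G : SimpleGraph β) (Big : Finset β)
    (hne : (SB G H A₁ I Big).Nonempty) :
    ∃ (P X Rc : ℕ),
      P + Big.card ≤ ∑ y ∈ Big, (nb G y).card + Rc ∧
      Rc + (eIn G univ).card = Fintype.card β + X ∧
      (X : ℝ) * (- Real.log q - 1) ≤ (Fintype.card β : ℝ) * (Real.log ((n : ℝ) * q) + 1) ∧
      ((SB G H A₁ I Big).card : ℝ) ≤
        Real.exp (8 * (Fintype.card β : ℝ) + 61 * ((eIn G univ).card : ℝ)) *
          ((n : ℝ) ^ Fintype.card β * q ^ (eIn G univ).card) *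
            Real.exp ((P : ℝ) * Real.log (Δ / ((n : ℝ) * q))) := by
  have hQP : QPar n q l lam Δ A₁ s₁ I := hp.toQPar
  have hq0 : 0 < q := hQP.std.q0
  have hD1 : 1 ≤ (n : ℝ) * q := hQP.D1
  have hD0 : 0 < (n : ℝ) * q := by linarith
  have hL1 : 1 ≤ Real.log n := by rw [← hQP.std.l_eq]; exact hQP.std.l1
  have hg₀1 : 1 ≤ A₁ / ((n : ℝ) * q) := by
    rw [one_le_div hD0]
    have := hQP.Alow
    linarith
  have hg₀8 : A₁ / ((n : ℝ) * q) ≤ 8192 := by
    rw [div_le_iff₀ hD0]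
    exact hp.A8192
  have hΔdeg := hQP.Δdeg
  have hl0 : 0 ≤ l := by linarith [hQP.std.l1]
  have he2 : (1 : ℝ) ≤ Real.exp 2 := Real.one_le_exp (by norm_num)
  have hΔD : (n : ℝ) * q ≤ Δ := by nlinarith
  have hΔ1 : 1 ≤ Δ := hD1.trans hΔD
  have hG₀1 : 1 ≤ Δ / ((n : ℝ) * q) := (one_le_div hD0).2 hΔD
  obtain ⟨P, X, Rc, hP1, hP2, hP3, hA⟩ := a_bound (F := G) hG hp.n2 hV hq0 hp.qe hL1 hp.Q16 hD1 hp.D2
    (SB G H A₁ I Big) hne (fun φ hφ => (mem_emb.1 (Finset.mem_filter.1 hφ).1).1)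
    (fun φ hφ => (mem_emb.1 (Finset.mem_filter.1 hφ).1).2) Big
    (g₀ := A₁ / ((n : ℝ) * q)) (G₀ := Δ / ((n : ℝ) * q)) hg₀1 hG₀1 (by
      intro φ hφ y
      split_ifs with hy
      · rw [div_mul_cancel₀ _ hD0.ne']
        have h1 := degree_bound hG hq0 hQP.std.q1 hQP.std.n1 hV hD1 (φ y)
        have hnb : ((univ : Finset V).filter (fun b => H.Adj (φ y) b)) = nb H (φ y) := rfl
        rw [hnb] at h1
        rw [hQP.std.l_eq] at hΔdeg
        linarith
      · rw [div_mul_cancel₀ _ hD0.ne']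
        have hc := ((Finset.mem_filter.1 hφ).2 y).2 hy
        have hs := (classOf_spec hG hV hQP G (Finset.mem_filter.1 hφ).1 y).1
        rw [hc] at hs
        simpa [fQ] using hs)
  refine ⟨P, X, Rc, hP1, hP2, hP3, hA.trans ?_⟩
  have hGexp : (Δ / ((n : ℝ) * q)) ^ P = Real.exp ((P : ℝ) * Real.log (Δ / ((n : ℝ) * q))) := by
    rw [Real.exp_nat_mul, Real.exp_log (by linarith)]
  rw [← hGexp]
  have h1 := xb_const (v := Fintype.card β) (e := (eIn G univ).card) hp.kap0 hp.kap1 hg₀1 hg₀8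
  have hR0 : 0 ≤ (n : ℝ) ^ Fintype.card β * q ^ (eIn G univ).card := by positivity
  have hP0 : 0 ≤ (Δ / ((n : ℝ) * q)) ^ P := by positivity
  calc _ = (xA ^ Fintype.card β * xKb n q ^ (eIn G univ).card *
        (A₁ / ((n : ℝ) * q)) ^ (2 * (eIn G univ).card)) *
        ((n : ℝ) ^ Fintype.card β * q ^ (eIn G univ).card * (Δ / ((n : ℝ) * q)) ^ P) := by ring
    _ ≤ Real.exp (8 * (Fintype.card β : ℝ) + 61 * ((eIn G univ).card : ℝ)) *
        ((n : ℝ) ^ Fintype.card β * q ^ (eIn G univ).card * (Δ / ((n : ℝ) * q)) ^ P) :=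
        mul_le_mul_of_nonneg_right h1 (mul_nonneg hR0 hP0)
    _ = _ := by ring

/-- The bound for one set `Big`.  Empty `SB` is trivial.  Else `a_bound` with `S = SB`, `g₀ = A₁ / D`, `G₀ = Δ / D` (low: `deg ≤ A₁`, `classOf_spec (1)`; else `deg ≤ Δ`, `degree_bound`) gives `P, X, Rc`;
`b_bound` gives `z` with `|SB| ≤ v YB R A₁^Q`, `Q = Σ_{y ∉ Big} ct z y`, and `Q + |Big^c| ≤ Σ_{y ∉ Big} deg y + 1` (`ct_add_one_le`, `ct_root_le`).  With `Σ deg ≤ 2 e`, `Rc + e = v + X`: `P + Q ≤ e + X + 1`.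
With `h = yh a b`, `a = log G₀`, `b = log A₁`: `min_le_yh`: the minimum of the two bounds is at most `C R exp (h (e + X + 1))`.  `X b (g + 1) ≤ X (lam - 1) ≤ v (g + 1)` (`XN`) so `X h ≤ v`.
If `h ≤ e`: `exp h ≤ exp e`, done.  Else `e < h ≤ b`, so `v < b + 1`, `X = 0` (`XN`), `P + Q ≤ e + 1`.  If `Big = ∅`: `P = 0`, use `a_bound` only.  If `Big ≠ ∅`: dense is impossible (`dense_big`, `deg ≤ e`, `log A₁ < A₁ / 8`), chord is impossible (`chord_big`),
so `b_bound_hub`: extra factor `(2 / A₁)^|Big| ≤ 2 / A₁`: `A₁^Q (2 / A₁) ≤ 2 A₁^(Q - 1)` (`Q ≥ 1`) or `≤ 1` (`Q = 0`); `P + (Q - 1) ≤ e`, `min_le_yh` again. -/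
theorem big_bound (hG : GoodDensity n q H) {Δ A₁ : ℝ} {s₁ I : ℕ} (hV : Fintype.card V ≤ n)
    (hp : YPar n q l lam Δ A₁ s₁ I) (G : SimpleGraph β) [Nonempty β] (hiso : ∀ x, ∃ y, G.Adj x y)
    (hconn : ∀ D : Finset β, D.Nonempty → D ≠ univ → ∃ u ∈ D, ∃ w, w ∉ D ∧ G.Adj u w) (Big : Finset β) :
    ((SB G H A₁ I Big).card : ℝ) ≤
      Real.exp (9 * (Fintype.card β : ℝ) + 74 * ((eIn G univ).card : ℝ)) *
        Real.exp (yh (Real.log (Δ / ((n : ℝ) * q))) (Real.log A₁)) ^ (eIn G univ).card *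
        ((n : ℝ) ^ Fintype.card β * q ^ (eIn G univ).card) := by
  have hQP : QPar n q l lam Δ A₁ s₁ I := hp.toQPar
  have hq0 : 0 < q := hQP.std.q0
  have hD1 : 1 ≤ (n : ℝ) * q := hQP.D1
  have hD0 : 0 < (n : ℝ) * q := by linarith
  have hA4096 : (4096 : ℝ) ≤ A₁ := by
    have := hQP.Alow
    linarith
  have hA0 : 0 < A₁ := by linarith
  have hΔdeg := hQP.Δdeg
  have hl0 : 0 ≤ l := by linarith [hQP.std.l1]
  have he2 : (1 : ℝ) ≤ Real.exp 2 := Real.one_le_exp (by norm_num)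
  have hΔD : (n : ℝ) * q ≤ Δ := by nlinarith
  generalize hv : Fintype.card β = v at *
  have hv1 : 1 ≤ v := by
    rw [← hv]
    exact Fintype.card_pos
  have hve : v ≤ 2 * (eIn G univ).card := by
    rw [← hv]
    exact (vertices_le_darts hiso).trans darts_card_le
  generalize he : (eIn G univ).card = e at *
  have he1 : 1 ≤ e := by omega
  have he0R : (0 : ℝ) ≤ e := Nat.cast_nonneg _
  have hv0R : (0 : ℝ) ≤ v := Nat.cast_nonneg _
  have he1R : (1 : ℝ) ≤ e := by exact_mod_cast he1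
  generalize hR : (n : ℝ) ^ v * q ^ e = R
  have hR0 : 0 ≤ R := by
    rw [← hR]
    positivity
  have ha0 : 0 ≤ Real.log (Δ / ((n : ℝ) * q)) := Real.log_nonneg ((one_le_div hD0).2 hΔD)
  have hb0 : 0 < Real.log A₁ := Real.log_pos (by linarith)
  have hh0 := yh_nonneg ha0 hb0
  have hhb := yh_le_right ha0 hb0
  have hexph : 1 ≤ Real.exp (yh (Real.log (Δ / ((n : ℝ) * q))) (Real.log A₁)) ^ e :=
    one_le_pow₀ (Real.one_le_exp hh0)
  by_cases hne : (SB G H A₁ I Big).Nonempty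
  swap
  · rw [Finset.not_nonempty_iff_eq_empty.1 hne]
    simp only [Finset.card_empty, Nat.cast_zero]
    positivity
  by_cases hBig : Big = ∅
  · subst hBig
    have h1 := big_empty hG hV hp G hne
    rw [hv, he, hR] at h1
    refine h1.trans ?_
    calc Real.exp (8 * (v : ℝ) + 61 * (e : ℝ)) * R
        ≤ Real.exp (9 * (v : ℝ) + 74 * (e : ℝ)) * R :=
          mul_le_mul_of_nonneg_right (Real.exp_le_exp.2 (by linarith)) hR0
      _ = Real.exp (9 * (v : ℝ) + 74 * (e : ℝ)) * 1 * R := by ring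
      _ ≤ _ := by gcongr
  obtain ⟨P, X, Rc, hP1, hP2, hP3, hA⟩ := big_first hG hV hp G Big hne
  rw [hv, he, hR] at hA
  rw [hv, he] at hP2
  rw [hv] at hP3
  have hA'' : ((SB G H A₁ I Big).card : ℝ) ≤ Real.exp (8 * (v : ℝ) + 72 * (e : ℝ)) * R *
      Real.exp ((P : ℝ) * Real.log (Δ / ((n : ℝ) * q))) := by
    refine hA.trans ?_
    have : Real.exp (8 * (v : ℝ) + 61 * (e : ℝ)) ≤ Real.exp (8 * (v : ℝ) + 72 * (e : ℝ)) :=
      Real.exp_le_exp.2 (by linarith)
    gcongr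
  have htree := fun z => exists_trees hconn z
  choose par r hT using htree
  obtain ⟨z, -, hz⟩ := Finset.exists_max_image (univ : Finset β)
    (fun z => ∑ y ∈ univ.filter (fun y => y ∉ Big), ct z (par z) y) Finset.univ_nonempty
  have hAQ : ∀ z' : β, A₁ ^ (∑ y ∈ univ.filter (fun y => y ∉ Big), ct z' (par z') y) ≤
      A₁ ^ (∑ y ∈ univ.filter (fun y => y ∉ Big), ct z (par z) y) :=
    fun z' => pow_le_pow_right₀ (by linarith) (hz z' (mem_univ _))
  have hQcount := count_Q (hT z) Big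
  generalize hQ : ∑ y ∈ univ.filter (fun y => y ∉ Big), ct z (par z) y = Q at hAQ hQcount
  have hPQ : P + Q ≤ e + X + 1 := by
    have := count_all (G := G) Big hP1 (by rw [he, hv]; exact hP2) hQcount
    rwa [he] at this
  have hg1 : 0 < Real.log ((n : ℝ) * q) + 1 := by
    have := Real.log_nonneg hD1
    linarith
  have hXb : (X : ℝ) * (Real.log A₁ + 1) ≤ v := excess_le hg1 hp.XN hP3
  have hYB0 : 0 ≤ YB v e := by unfold YB; positivity
  have hC2 := yb_const (v := v) he1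
  by_cases hhe : yh (Real.log (Δ / ((n : ℝ) * q))) (Real.log A₁) ≤ e
  · have hB := b_bound hG hV hQP G (by rw [he]; exact he1) par r hT Big
    rw [hv, he, hR] at hB
    have hB' : ((SB G H A₁ I Big).card : ℝ) ≤ Real.exp (8 * (v : ℝ) + 72 * (e : ℝ)) * R *
        Real.exp ((Q : ℝ) * Real.log A₁) := by
      refine hB.trans ?_
      have hApos : A₁ ^ Q = Real.exp ((Q : ℝ) * Real.log A₁) := by
        rw [Real.exp_nat_mul, Real.exp_log hA0]
      rw [← hApos]
      have hC3 : (v : ℝ) * YB v e ≤ Real.exp (8 * (v : ℝ) + 72 * (e : ℝ)) :=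
        hC2.trans (Real.exp_le_exp.2 (by linarith))
      calc _ ≤ ∑ _z : β, YB v e * R * A₁ ^ Q := Finset.sum_le_sum fun z' _ =>
              mul_le_mul_of_nonneg_left (hAQ z') (by positivity)
        _ = (v : ℝ) * YB v e * R * A₁ ^ Q := by
          rw [Finset.sum_const, Finset.card_univ, hv, nsmul_eq_mul]
          ring
        _ ≤ _ := by gcongr
    exact num_big ha0 hb0 hR0 hA'' hB' hPQ hXb hhe
  · have hhe' : (e : ℝ) < yh (Real.log (Δ / ((n : ℝ) * q))) (Real.log A₁) := not_le.1 hhe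
    have hve1 : v ≤ e + 1 := by
      have := v_le_e_add_one (hT z)
      rwa [hv, he] at this
    have hve1R : (v : ℝ) ≤ (e : ℝ) + 1 := by exact_mod_cast hve1
    have hvb : (v : ℝ) < Real.log A₁ + 1 := by linarith
    have hX0 : X = 0 := by
      by_contra hX
      have h1 : (1 : ℝ) ≤ X := by exact_mod_cast Nat.one_le_iff_ne_zero.2 hX
      nlinarith
    subst hX0
    have hhub : ∀ φ ∈ SB G H A₁ I Big, ∀ y ∈ Big, ∃ i, classOf G H A₁ I φ y = Sum.inr i := by
      intro φ hφ y hy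
      have hφ' := (Finset.mem_filter.1 hφ).1
      have hcl := (Finset.mem_filter.1 hφ).2 y
      have h1 := degree_bound hG hq0 hQP.std.q1 hQP.std.n1 hV hD1 (φ y)
      have hnb : ((univ : Finset V).filter (fun b => H.Adj (φ y) b)) = nb H (φ y) := rfl
      rw [hnb] at h1
      have hΔ2 := hQP.Δdeg
      rw [hQP.std.l_eq] at hΔ2
      exact hub_tiny hG hV hQP (hT z) hφ' (fun hc => (hcl.1 hc) hy) (by linarith)
        (by rw [hv]; exact hvb) (by rw [he]; linarith)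
    have hB2 := b_bound_hub hG hV hQP G (by rw [he]; exact he1) par r hT Big hhub
    rw [hv, he, hR] at hB2
    have hBne : 1 ≤ Big.card := Finset.card_pos.2 (Finset.nonempty_iff_ne_empty.2 hBig)
    have h2A0 : 0 ≤ 2 / A₁ := by positivity
    have h2A1 : 2 / A₁ ≤ 1 := by
      rw [div_le_one hA0]
      linarith
    have hpow : (2 / A₁) ^ Big.card ≤ 2 / A₁ := by
      calc (2 / A₁) ^ Big.card ≤ (2 / A₁) ^ 1 := pow_le_pow_of_le_one h2A0 h2A1 hBne
        _ = _ := pow_one _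
    have hB3 : ((SB G H A₁ I Big).card : ℝ) ≤ (v : ℝ) * YB v e * R * (A₁ ^ Q * (2 / A₁)) := by
      refine hB2.trans ?_
      calc _ ≤ ∑ _z : β, YB v e * R * (A₁ ^ Q * (2 / A₁)) := Finset.sum_le_sum fun z' _ => by
            rw [mul_assoc]
            apply mul_le_mul_of_nonneg_left _ (by positivity)
            exact mul_le_mul (hAQ z') hpow (by positivity) (by positivity)
        _ = _ := by
          rw [Finset.sum_const, Finset.card_univ, hv, nsmul_eq_mul]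
          ring
    have hCv : (v : ℝ) * YB v e * 2 ≤ Real.exp (8 * (v : ℝ) + 72 * (e : ℝ)) := by
      have h3 : (2 : ℝ) ≤ Real.exp (e : ℝ) := by
        have := Real.add_one_le_exp (e : ℝ)
        linarith
      calc (v : ℝ) * YB v e * 2 ≤ Real.exp (7 * (v : ℝ) + 71 * (e : ℝ)) * Real.exp (e : ℝ) :=
            mul_le_mul hC2 h3 (by norm_num) (Real.exp_pos _).le
        _ = Real.exp (7 * (v : ℝ) + 71 * (e : ℝ) + (e : ℝ)) := (Real.exp_add _ _).symm
        _ ≤ _ := Real.exp_le_exp.2 (by linarith)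
    exact num_tiny ha0 (by linarith) hb0 hR0 (mul_nonneg hv0R hYB0) hCv hA'' hB3 (by omega)

/-- Sum over `Big`: `emb = ⋃_Big SB`, `2^v ≤ exp v`. -/
theorem conn_boundY (hG : GoodDensity n q H) {Δ A₁ : ℝ} {s₁ I : ℕ} (hV : Fintype.card V ≤ n)
    (hp : YPar n q l lam Δ A₁ s₁ I) (G : SimpleGraph β) [Nonempty β] (hiso : ∀ x, ∃ y, G.Adj x y)
    (hconn : ∀ D : Finset β, D.Nonempty → D ≠ univ → ∃ u ∈ D, ∃ w, w ∉ D ∧ G.Adj u w) :
    ((emb G H).card : ℝ) ≤
      Real.exp (10 * (Fintype.card β : ℝ) + 74 * ((eIn G univ).card : ℝ)) *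
        Real.exp (yh (Real.log (Δ / ((n : ℝ) * q))) (Real.log A₁)) ^ (eIn G univ).card *
        ((n : ℝ) ^ Fintype.card β * q ^ (eIn G univ).card) := by
  set B : ℝ := Real.exp (9 * (Fintype.card β : ℝ) + 74 * ((eIn G univ).card : ℝ)) *
      Real.exp (yh (Real.log (Δ / ((n : ℝ) * q))) (Real.log A₁)) ^ (eIn G univ).card *
      ((n : ℝ) ^ Fintype.card β * q ^ (eIn G univ).card) with hB
  have hsub : emb G H ⊆ (univ : Finset (Finset β)).biUnion fun Big => SB G H A₁ I Big := by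
    intro φ hφ
    simp only [mem_biUnion, mem_univ, true_and]
    refine ⟨univ.filter fun y => classOf G H A₁ I φ y ≠ Sum.inl 0, ?_⟩
    unfold SB
    rw [mem_filter]
    refine ⟨hφ, fun y => ?_⟩
    simp
  have h1 : ((emb G H).card : ℝ) ≤ ∑ Big : Finset β, ((SB G H A₁ I Big).card : ℝ) := by
    have := (card_le_card hsub).trans card_biUnion_le
    exact_mod_cast this
  have h2 : ∑ Big : Finset β, ((SB G H A₁ I Big).card : ℝ) ≤ ∑ _Big : Finset β, B :=
    sum_le_sum fun Big _ => big_bound hG hV hp G hiso hconn Big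
  have h3 : ∑ _Big : Finset β, B = (2 : ℝ) ^ Fintype.card β * B := by
    simp [Fintype.card_finset]
  have h4 : (2 : ℝ) ^ Fintype.card β ≤ Real.exp (Fintype.card β : ℝ) := by
    have h21 : (2 : ℝ) ≤ Real.exp 1 := by
      have := Real.add_one_le_exp (1 : ℝ)
      linarith
    calc (2 : ℝ) ^ Fintype.card β ≤ (Real.exp 1) ^ Fintype.card β :=
          pow_le_pow_left₀ (by norm_num) h21 _
      _ = Real.exp (Fintype.card β : ℝ) := by
          rw [← Real.exp_nat_mul]; simp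
  have hB0 : 0 ≤ B := by
    have := (Nat.cast_nonneg (α := ℝ) (SB G H A₁ I ∅).card).trans
      (big_bound hG hV hp G hiso hconn ∅)
    exact this
  have h5 : Real.exp (10 * (Fintype.card β : ℝ) + 74 * ((eIn G univ).card : ℝ)) =
      Real.exp (Fintype.card β : ℝ) *
        Real.exp (9 * (Fintype.card β : ℝ) + 74 * ((eIn G univ).card : ℝ)) := by
    rw [← Real.exp_add]; congr 1; ring
  calc ((emb G H).card : ℝ) ≤ (2 : ℝ) ^ Fintype.card β * B := by
        rw [← h3]; exact h1.trans h2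
    _ ≤ Real.exp (Fintype.card β : ℝ) * B := mul_le_mul_of_nonneg_right h4 hB0
    _ = _ := by
        rw [h5, hB]; ring

end Vale.Agent.Lib.P064Y
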