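import Vale.Agent.Lib.P064Y.Conn
import Vale.Agent.Lib.P064U.WComp
import Vale.Agent.Lib.P064.Final
import Vale.Agent.Lib.P064N.Final
import Vale.Agent.Lib.P064Q.Final1

/-!
The embedding bound and the thresholds (notes/P064Y_blueprint.md, part FY).
-/

open Finset

namespace Vale.Agent.Lib.P064Y

open Vale.Agent.Lib.P064 Vale.Agent.Lib.P064E Vale.Agent.Lib.P064U Vale.Agent.Lib.P064Q
open scoped Classical

variable {V : Type} [Fintype V] {H : SimpleGraph V} {n : ℕ} {q l lam : ℝ}

/-- Copy `embBound_Q` (Lib/P064Q/Final1.lean) with `conn_boundY`: `v ≤ 2 e`. -/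
theorem embBound_Y (hG : GoodDensity n q H) {Δ A₁ : ℝ} {s₁ I : ℕ} (hV : Fintype.card V ≤ n)
    (hp : YPar n q l lam Δ A₁ s₁ I) :
    EmbBound n H (Real.exp 110 * Real.exp (yh (Real.log (Δ / ((n : ℝ) * q))) (Real.log A₁)) * q) := by
  intro β _ G hiso hvn
  have hq0 : 0 < q := hp.std.q0
  set K : ℝ := Real.exp (yh (Real.log (Δ / ((n : ℝ) * q))) (Real.log A₁)) with hK
  have hK0 : 0 < K := Real.exp_pos _
  have hn0 : (0 : ℝ) ≤ n := Nat.cast_nonneg _
  have hBd : 0 ≤ Real.exp 94 * K * q := by positivity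
  have hmain : ((emb G H).card : ℝ) ≤
      (Real.exp 94 * K * q) ^ (eIn G univ).card * (n : ℝ) ^ Fintype.card β := by
    refine emb_components (H := H) (n := n) hBd ?_ β G hiso
    intro γ _ G' hne hiso' hconn
    have := hne
    have h := conn_boundY (H := H) hG hV hp G' hiso' hconn
    refine h.trans ?_
    set e := (eIn G' univ).card with he
    set v := Fintype.card γ with hv
    have hve : v ≤ 2 * e := (vertices_le_darts hiso').trans darts_card_le
    have hve' : (v : ℝ) ≤ 2 * (e : ℝ) := by exact_mod_cast hve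
    have hf : Real.exp (10 * (v : ℝ) + 74 * (e : ℝ)) ≤ Real.exp 94 ^ e := by
      rw [← Real.exp_nat_mul]
      apply Real.exp_le_exp.2
      linarith
    have hnq : 0 ≤ K ^ e * ((n : ℝ) ^ v * q ^ e) := by positivity
    calc Real.exp (10 * (v : ℝ) + 74 * (e : ℝ)) * K ^ e * ((n : ℝ) ^ v * q ^ e)
        = Real.exp (10 * (v : ℝ) + 74 * (e : ℝ)) * (K ^ e * ((n : ℝ) ^ v * q ^ e)) := by ring
      _ ≤ Real.exp 94 ^ e * (K ^ e * ((n : ℝ) ^ v * q ^ e)) :=
          mul_le_mul_of_nonneg_right hf hnq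
      _ = (Real.exp 94 * K * q) ^ e * (n : ℝ) ^ v := by
          rw [mul_pow, mul_pow]
          ring
  refine hmain.trans ?_
  set e := (eIn G univ).card with he
  set v := Fintype.card β with hv
  have hve : v ≤ 2 * e := (vertices_le_darts hiso).trans darts_card_le
  have hnd := pow_le_exp_descFactorial hvn
  set d : ℝ := (n.descFactorial v : ℝ) with hd
  have hd0 : 0 ≤ d := Nat.cast_nonneg _
  have hE1 : 1 ≤ Real.exp 1 := Real.one_le_exp (by norm_num)
  have hpow : Real.exp 1 ^ v ≤ Real.exp 2 ^ e := by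
    have h1 : Real.exp 2 ^ e = Real.exp 1 ^ (2 * e) := by
      have h0 : Real.exp 2 = Real.exp 1 ^ 2 := by
        rw [← Real.exp_nat_mul]
        norm_num
      rw [h0, ← pow_mul]
    rw [h1]
    exact pow_le_pow_right₀ hE1 hve
  have hb0 : 0 ≤ (Real.exp 94 * K * q) ^ e := by positivity
  calc (Real.exp 94 * K * q) ^ e * (n : ℝ) ^ v
      ≤ (Real.exp 94 * K * q) ^ e * (Real.exp 1 ^ v * d) :=
        mul_le_mul_of_nonneg_left hnd hb0
    _ ≤ (Real.exp 94 * K * q) ^ e * (Real.exp 2 ^ e * d) := by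
        gcongr
    _ = (Real.exp 96 * K * q) ^ e * d := by
        have h16 : Real.exp 96 = Real.exp 94 * Real.exp 2 := by
          rw [← Real.exp_add]
          norm_num
        rw [h16]
        have : Real.exp 94 * Real.exp 2 * K * q = (Real.exp 94 * K * q) * Real.exp 2 := by ring
        rw [this, mul_pow]
        ring
    _ ≤ (Real.exp 110 * K * q) ^ e * d := by
        have h : Real.exp 96 ≤ Real.exp 110 := Real.exp_le_exp.2 (by norm_num)
        gcongr

/-- The numerics behind `exists_ypar`: with `x = log (300 L)`, `L ≥ 10000`: `4 x² + x ≤ L`. -/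
private lemma num_ypar {L : ℝ} (hL : 10000 ≤ L) :
    0 ≤ Real.log (300 * L) ∧ 4 * Real.log (300 * L) ^ 2 + Real.log (300 * L) ≤ L := by
  have hL0 : 0 < L := by linarith
  set u := Real.sqrt L with hu
  have hu2 : u ^ 2 = L := Real.sq_sqrt hL0.le
  have hu0 : 0 < u := Real.sqrt_pos.2 hL0
  have hu100 : 100 ≤ u := by
    rw [hu]
    apply Real.le_sqrt_of_sq_le
    linarith
  have hlog2 := Real.log_two_lt_d9
  have hlog2' : 0 < Real.log 2 := Real.log_pos (by norm_num)
  have h300 : Real.log 300 ≤ 9 * Real.log 2 := by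
    have : Real.log 300 ≤ Real.log (2 ^ 9) := Real.log_le_log (by norm_num) (by norm_num)
    rw [Real.log_pow] at this
    simpa using this
  have h100 : Real.log 100 ≤ 7 * Real.log 2 := by
    have : Real.log 100 ≤ Real.log (2 ^ 7) := Real.log_le_log (by norm_num) (by norm_num)
    rw [Real.log_pow] at this
    simpa using this
  have hlogu : Real.log u ≤ Real.log 100 + (u / 100 - 1) := by
    have h1 : Real.log (u / 100) ≤ u / 100 - 1 :=
      Real.log_le_sub_one_of_pos (by positivity)
    rw [Real.log_div hu0.ne' (by norm_num)] at h1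
    linarith
  have hx : Real.log (300 * L) = Real.log 300 + 2 * Real.log u := by
    rw [← hu2, Real.log_mul (by norm_num) (by positivity), Real.log_pow]
    norm_num
  have hx0 : 0 ≤ Real.log (300 * L) := Real.log_nonneg (by linarith)
  have hxu : Real.log (300 * L) ≤ u / 4 := by
    rw [hx]
    linarith
  refine ⟨hx0, ?_⟩
  have h4 : 4 * Real.log (300 * L) ^ 2 ≤ L / 4 := by
    have : Real.log (300 * L) ^ 2 ≤ (u / 4) ^ 2 := pow_le_pow_left₀ hx0 hxu 2
    have h5 : (u / 4) ^ 2 = L / 16 := by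
      rw [← hu2]
      ring
    rw [h5] at this
    linarith
  have h6 : u ≤ L := by
    rw [← hu2]
    nlinarith
  linarith

/-- Copy `exists_qpar` with the fields of `YPar`, and record `Δ = exp 2 (D + L)`.  For `L ≥ 10000`, `1 ≤ D ≤ 4 L`: `xKap ≤ 1`, `XN` from `log D ≤ log (4 L)`, `log A₁ ≤ log (32768 L)`. -/
theorem exists_ypar (hn : 2 ≤ n) (hL : 10000 ≤ Real.log n) {q : ℝ} (hD1 : 1 ≤ (n : ℝ) * q)
    (hD2 : (n : ℝ) * q ≤ 4 * Real.log n) :
    ∃ (l lam A₁ : ℝ) (s₁ I : ℕ), YPar n q l lam (Real.exp 2 * ((n : ℝ) * q + Real.log n)) A₁ s₁ I := by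
  have hn0 : (0 : ℝ) < n := by
    have : (2 : ℝ) ≤ n := by exact_mod_cast hn
    linarith
  set L := Real.log n with hLdef
  set D := (n : ℝ) * q with hD
  have hL0 : 0 < L := by linarith
  have hq0 : 0 < q := by
    by_contra hc
    push Not at hc
    have : (n : ℝ) * q ≤ 0 := mul_nonpos_of_nonneg_of_nonpos hn0.le hc
    rw [← hD] at this
    linarith
  have hD0 : 0 < D := by linarith
  obtain ⟨hx0, hxL⟩ := num_ypar hL
  set x := Real.log (300 * L) with hx
  have hlogD0 : 0 ≤ Real.log D := Real.log_nonneg hD1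
  have hlogDx : Real.log D ≤ x := by
    rw [hx]
    apply Real.log_le_log hD0
    linarith
  have hlogD : Real.log D = L + Real.log q := by
    rw [hD, hLdef, Real.log_mul hn0.ne' hq0.ne']
  have hx1 : 1 ≤ x := by
    rw [hx, Real.le_log_iff_exp_le (by positivity)]
    have h1 := Real.exp_one_lt_d9
    linarith
  -- `x` is at least `4`
  have hx14 : 4 ≤ x := by
    rw [hx, Real.le_log_iff_exp_le (by positivity)]
    have h1 := Real.exp_one_lt_d9
    have h0 := Real.exp_pos 1
    have h2 : Real.exp 4 = Real.exp 1 ^ 4 := by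
      rw [← Real.exp_nat_mul]
      norm_num
    have h3 : Real.exp 1 ^ 4 ≤ 3 ^ 4 := pow_le_pow_left₀ h0.le (by linarith) 4
    rw [h2]
    linarith
  have hx4 : x ≤ L / 5 := by nlinarith
  obtain ⟨m, hm1, hm2⟩ := exists_nat_pow_near (x := 4096 * D) (y := (2 : ℝ)) (by linarith) (by norm_num)
  have hE2 : Real.exp 2 ≤ 7.5 := by
    have h0 : Real.exp 2 = Real.exp 1 ^ 2 := by
      rw [← Real.exp_nat_mul]
      norm_num
    rw [h0]
    have h1 := Real.exp_one_lt_d9
    have h2 := Real.exp_pos 1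
    nlinarith
  have hE0 : 0 < Real.exp 2 := Real.exp_pos 2
  obtain ⟨I, hI⟩ := pow_unbounded_of_one_lt (Real.exp 2 * (D + L)) (one_lt_two)
  have hΔ0 : 0 < Real.exp 2 * (D + L) := by positivity
  have hΔ8 : Real.log (8 * (Real.exp 2 * (D + L))) ≤ x := by
    rw [hx]
    apply Real.log_le_log (by positivity)
    have h1 : D + L ≤ 5 * L := by linarith
    have h2 : Real.exp 2 * (D + L) ≤ 7.5 * (5 * L) :=
      mul_le_mul hE2 h1 (by linarith) (by norm_num)
    linarith
  have hlam : - Real.log q = L - Real.log D := by linarith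
  have hlamx : L - x ≤ - Real.log q := by linarith
  have hA8 : (2 : ℝ) ^ (m + 1) ≤ 8192 * D := by
    rw [pow_succ]
    linarith
  have hA0 : (0 : ℝ) < 2 ^ (m + 1) := by positivity
  have hlogA : Real.log ((2 : ℝ) ^ (m + 1)) ≤ x + 5 := by
    have h1 : Real.log ((2 : ℝ) ^ (m + 1)) ≤ Real.log (8192 * (4 * L)) :=
      Real.log_le_log hA0 (hA8.trans (by nlinarith))
    have h2 : (8192 : ℝ) * (4 * L) = Real.exp 5 * (300 * L) * (8192 * 4 / (300 * Real.exp 5)) := by
      have := Real.exp_pos 5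
      field_simp
    have h3 : (8192 : ℝ) * 4 / (300 * Real.exp 5) ≤ 1 := by
      have h4 : (2.7 : ℝ) ≤ Real.exp 1 := by
        have := Real.exp_one_gt_d9
        linarith
      have h5 : Real.exp 5 = Real.exp 1 ^ 5 := by
        rw [← Real.exp_nat_mul]
        norm_num
      have h6 : (2.7 : ℝ) ^ 5 ≤ Real.exp 1 ^ 5 := pow_le_pow_left₀ (by norm_num) h4 5
      rw [div_le_one (by positivity), h5]
      norm_num at h6 ⊢
      linarith
    have h7 : Real.log (8192 * (4 * L)) ≤ Real.log (Real.exp 5 * (300 * L)) := by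
      apply Real.log_le_log (by positivity)
      rw [h2]
      have h8 : 0 < Real.exp 5 * (300 * L) := by positivity
      exact mul_le_of_le_one_right h8.le h3
    rw [Real.log_mul (Real.exp_pos 5).ne' (by positivity), Real.log_exp] at h7
    linarith
  refine ⟨L, -Real.log q, 2 ^ (m + 1), m + 1, I, ?_⟩
  have hQP : QPar n q L (-Real.log q) (Real.exp 2 * (D + L)) (2 ^ (m + 1)) (m + 1) I := by
    refine
      { std :=
          { n1 := by omega
            l_eq := rfl
            lam_eq := rfl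
            q0 := hq0
            l1 := by linarith
            lam1 := by linarith
            lam_le := by linarith }
        D1 := hD1
        s12 := ?_
        A₁eq := rfl
        Alow := ?_
        Δdeg := le_refl _
        ΔI := hI
        rho := by linarith
        N7 := ?_ }
    · by_contra hc
      push Not at hc
      have h1 : (2 : ℝ) ^ (m + 1) ≤ 2 ^ 12 :=
        pow_le_pow_right₀ (by norm_num) (by omega)
      have h2 : (2 : ℝ) ^ 12 = 4096 := by norm_num
      rw [h2] at h1
      linarith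
    · exact hm2.le
    · have h1 : L - -Real.log q = Real.log D := by linarith
      rw [h1]
      have h2 : Real.log D * Real.log (8 * (Real.exp 2 * (D + L))) ≤ x * x :=
        mul_le_mul hlogDx hΔ8 (Real.log_nonneg (by
          have h3 : 1 ≤ Real.exp 2 := Real.one_le_exp (by norm_num)
          have h4 : 1 ≤ D + L := by linarith
          nlinarith)) hx0
      nlinarith
  have hQ1 : 1 ≤ - Real.log q := by linarith
  have hlogL : Real.log L ≤ x := by
    rw [hx]
    exact Real.log_le_log hL0 (by linarith)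
  have hlogL0 : 0 ≤ Real.log L := Real.log_nonneg (by linarith)
  refine
    { toQPar := hQP
      n2 := hn
      qe := ?_
      Q16 := by linarith
      D2 := ?_
      kap0 := ?_
      kap1 := ?_
      A8192 := hA8
      XN := ?_ }
  · -- `q ≤ exp (-1)`
    have h1 : Real.log q ≤ -1 := by linarith
    exact (Real.log_le_iff_le_exp hq0).1 h1
  · -- `(e D)² < n`
    have hpos : 0 < (Real.exp 1 * D) ^ 2 := by positivity
    have h1 : Real.log ((Real.exp 1 * D) ^ 2) = 2 * (1 + Real.log D) := by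
      rw [Real.log_pow, Real.log_mul (Real.exp_pos 1).ne' hD0.ne', Real.log_exp]
      norm_num
    have h2 : Real.log ((Real.exp 1 * D) ^ 2) < Real.log n := by
      rw [h1, ← hLdef]
      linarith
    exact (Real.log_lt_log_iff hpos hn0).1 h2
  · -- `0 ≤ xKap`
    unfold xKap
    rw [← hD, ← hLdef]
    apply div_nonneg _ (by linarith)
    positivity
  · -- `xKap ≤ 1`
    unfold xKap
    rw [← hD, ← hLdef, div_le_one (by linarith)]
    have h1 : (Real.log D + 1) * Real.log L ≤ (x + 1) * x :=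
      mul_le_mul (by linarith) hlogL hlogL0 (by linarith)
    nlinarith
  · -- `XN`
    rw [← hD]
    have h1 : (Real.log D + 1) * (Real.log ((2 : ℝ) ^ (m + 1)) + 1) ≤ (x + 1) * (x + 6) := by
      apply mul_le_mul (by linarith) (by linarith) _ (by linarith)
      have : 0 ≤ Real.log ((2 : ℝ) ^ (m + 1)) := by
        apply Real.log_nonneg
        exact one_le_pow₀ (by norm_num)
      linarith
    nlinarith

/-- The exponent in the final statement. -/
noncomputable def qExp (L D : ℝ) : ℝ :=
  Real.exp (yh (Real.log (1 + L / D)) (Real.log (1 + D)))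

/-- `qExp ≤ (4 L)^(1/4)`: `yh a b ≤ (a + b) / 4`, `(1 + L / D) (1 + D) ≤ 4 L` for `1 ≤ D ≤ L`. -/
lemma qExp_le {L D : ℝ} (hD : 1 ≤ D) (hDL : D ≤ L) : qExp L D ≤ (4 * L) ^ ((1 : ℝ) / 4) := by
  have hD0 : 0 < D := by linarith
  have hL0 : 0 < L := by linarith
  have hLD0 : 0 < L / D := div_pos hL0 hD0
  have ha : 0 < Real.log (1 + L / D) := Real.log_pos (by linarith)
  have hb : 0 < Real.log (1 + D) := Real.log_pos (by linarith)
  have hLD : L / D ≤ L := div_le_self hL0.le hD
  have hprod : (1 + L / D) * (1 + D) ≤ 4 * L := by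
    have h1 : (1 + L / D) * (1 + D) = 1 + D + L / D + L / D * D := by ring
    have h2 : L / D * D = L := by field_simp
    rw [h1, h2]
    linarith
  have hab : Real.log (1 + L / D) + Real.log (1 + D) ≤ Real.log (4 * L) := by
    rw [← Real.log_mul (by positivity) (by positivity)]
    exact Real.log_le_log (by positivity) hprod
  have hy : yh (Real.log (1 + L / D)) (Real.log (1 + D)) ≤ Real.log (4 * L) * ((1 : ℝ) / 4) := by
    unfold yh
    rw [div_le_iff₀ (by positivity)]
    set a := Real.log (1 + L / D)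
    set b := Real.log (1 + D)
    have h3 : a * b ≤ (a + b) * ((a + b) * ((1 : ℝ) / 4)) := by nlinarith [sq_nonneg (a - b)]
    have h4 : (a + b) * ((a + b) * ((1 : ℝ) / 4)) ≤ Real.log (4 * L) * ((1 : ℝ) / 4) * (a + b) := by
      nlinarith
    linarith
  unfold qExp
  rw [Real.rpow_def_of_pos (by positivity)]
  exact Real.exp_le_exp.2 hy

private lemma yh_nonneg0 {a b : ℝ} (ha : 0 ≤ a) (hb : 0 ≤ b) : 0 ≤ yh a b :=
  div_nonneg (mul_nonneg ha hb) (add_nonneg ha hb)

private lemma yh_mono {a a' b b' : ℝ} (ha : 0 < a) (hb : 0 < b) (haa : a ≤ a') (hbb : b ≤ b') :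
    yh a b ≤ yh a' b' := by
  unfold yh
  have ha' : 0 < a' := by linarith
  have hb' : 0 < b' := by linarith
  rw [div_le_div_iff₀ (by positivity) (by positivity)]
  have h1 : a * b * a' ≤ a' * b' * a := by
    have : a * a' * b ≤ a * a' * b' := mul_le_mul_of_nonneg_left hbb (by positivity)
    nlinarith
  have h2 : a * b * b' ≤ a' * b' * b := by
    have : b * b' * a ≤ b * b' * a' := mul_le_mul_of_nonneg_left haa (by positivity)
    nlinarith
  nlinarith

private lemma yh_add_le {a b s t : ℝ} (ha : 0 < a) (hb : 0 < b) (hs : 0 ≤ s) (ht : 0 ≤ t) :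
    yh (a + s) (b + t) ≤ yh a b + s + t := by
  have hy0 : 0 ≤ yh a b := yh_nonneg0 ha.le hb.le
  have hy : yh a b * (a + b) = a * b := by
    unfold yh
    field_simp
  set y := yh a b with hyd
  unfold yh
  rw [div_le_iff₀ (by positivity)]
  nlinarith [mul_nonneg hs ht, mul_nonneg ha.le ht, mul_nonneg hb.le hs, mul_nonneg ha.le hs,
    mul_nonneg hb.le ht, mul_nonneg hy0 hs, mul_nonneg hy0 ht, mul_nonneg hs hs, mul_nonneg ht ht]

/-- The main theorem.  `P' = max pE (1/n)`, `q = max (4 pE) (1/n)`, `P' ≤ q ≤ 4 P'`, `good_of_pE`.  If `L ≥ 10000` and `n P' ≤ L`: `D = n q ≤ 4 L`, `exists_ypar`, `embBound_Y`, `pTilde_le_of_embBound`, `pc_le_of_embBound`;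
`a = log (Δ / D) = 2 + log (1 + L / D) ≤ 2 + log (1 + L / D')`, `b = log A₁ ≤ log (8192 D) ≤ 11 + log (1 + D')`, `yh` is monotone and `yh (a + s) (b + t) ≤ yh a b + s + t`, so `exp (yh ..) ≤ exp 13 qExp`.  If `L < 10000`: `pTilde_le_pE_log`, `pc_le_pE_log_sq` as in `q_thresholds_main` (Lib/P064Q/FinalQ.lean); `1 ≤ qExp`. -/
theorem y_thresholds :
    ∃ C : ℝ, 0 < C ∧ ∀ (n : ℕ) (V : Type) [Fintype V] (H : SimpleGraph V), 3 ≤ n →
      Fintype.card V ≤ n → H ≠ ⊥ →
      (n : ℝ) * max (pE n H) (1 / (n : ℝ)) ≤ Real.log n →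
      pTilde n H ≤ C * max (pE n H) (1 / (n : ℝ)) * qExp (Real.log n) ((n : ℝ) * max (pE n H) (1 / (n : ℝ))) ∧
      pc n H ≤ C * Real.log n * max (pE n H) (1 / (n : ℝ)) * qExp (Real.log n) ((n : ℝ) * max (pE n H) (1 / (n : ℝ))) := by
  obtain ⟨C₀, hC₀, h0⟩ := pTilde_le_pE_log
  obtain ⟨C₁, hC₁, h1⟩ := pc_le_pE_log_sq
  set A : ℝ := Real.exp 110 * Real.exp 13 * 4 with hA
  have hApos : 0 < A := by positivity
  refine ⟨512 * A + 10000 * C₀ + 10000 * C₁, by positivity, ?_⟩
  intro n V _ H hn3 hV hH hnP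
  have hn : 2 ≤ n := by omega
  have hn2 : (2 : ℝ) ≤ n := by exact_mod_cast hn
  have hn0 : (0 : ℝ) < n := by linarith
  have hL0 : 0 < Real.log n := Real.log_pos (by linarith)
  have hP0 : 0 < pE n H := pE_pos hn hV hH
  have h01 := h0 n hn V H hV hH
  have h11 := h1 n hn V H hV hH
  set P := pE n H with hP
  set L := Real.log n with hL
  set P' := max P (1 / (n : ℝ)) with hP'
  have hinv : 0 < 1 / (n : ℝ) := by positivity
  have hPP' : P ≤ P' := le_max_left _ _
  have hinvP' : 1 / (n : ℝ) ≤ P' := le_max_right _ _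
  have hP'0 : 0 < P' := by linarith
  have hD'1 : 1 ≤ (n : ℝ) * P' := by
    have h1' : (n : ℝ) * (1 / (n : ℝ)) ≤ (n : ℝ) * P' := mul_le_mul_of_nonneg_left hinvP' hn0.le
    have h2 : (n : ℝ) * (1 / (n : ℝ)) = 1 := by field_simp
    linarith
  set D' := (n : ℝ) * P' with hD'
  have hD'0 : 0 < D' := by linarith
  have hLD'0 : 0 < L / D' := div_pos hL0 hD'0
  have ha'0 : 0 < Real.log (1 + L / D') := Real.log_pos (by linarith)
  have hb'0 : 0 < Real.log (1 + D') := Real.log_pos (by linarith)
  set Q := qExp L D' with hQ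
  have hQ1 : 1 ≤ Q := Real.one_le_exp (yh_nonneg0 ha'0.le hb'0.le)
  have hQ0 : 0 < Q := by linarith
  have hS0 : 0 < P' * Q := by positivity
  have hCA : 512 * A ≤ 512 * A + 10000 * C₀ + 10000 * C₁ := by nlinarith
  have hC0 : 10000 * C₀ ≤ 512 * A + 10000 * C₀ + 10000 * C₁ := by nlinarith
  have hC1 : 10000 * C₁ ≤ 512 * A + 10000 * C₀ + 10000 * C₁ := by nlinarith
  set C := 512 * A + 10000 * C₀ + 10000 * C₁ with hC
  by_cases hcase : 10000 ≤ L
  · set q : ℝ := max (4 * P) (1 / (n : ℝ)) with hq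
    have hq1 : 4 * P ≤ q := le_max_left _ _
    have hq2 : 1 / (n : ℝ) ≤ q := le_max_right _ _
    have hq0 : 0 < q := by linarith
    have hP'q : P' ≤ q := max_le (by linarith) hq2
    have hq4 : q ≤ 4 * P' := max_le (by linarith) (by linarith)
    have hDD' : D' ≤ (n : ℝ) * q := mul_le_mul_of_nonneg_left hP'q hn0.le
    have hD4 : (n : ℝ) * q ≤ 4 * D' := by
      have := mul_le_mul_of_nonneg_left hq4 hn0.le
      rw [hD']
      linarith
    have hD1 : 1 ≤ (n : ℝ) * q := by linarith
    have hD2 : (n : ℝ) * q ≤ 4 * L := by linarith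
    have hG : GoodDensity n q H := Vale.Agent.Lib.P064N.good_of_pE hn hV hH hq1
    obtain ⟨l, lam, A₁, s₁, I, hpar⟩ := exists_ypar hn hcase hD1 hD2
    have hEmb := embBound_Y hG hV hpar
    set D := (n : ℝ) * q with hDdef
    have hD0 : 0 < D := by linarith
    have hA₁low : 4096 * D ≤ A₁ := hpar.Alow
    have hA₁hi : A₁ ≤ 8192 * D := hpar.A8192
    have hA₁pos : 0 < A₁ := by linarith
    -- the exponent
    have hLD0 : 0 < L / D := div_pos hL0 hD0
    have ha0 : 0 ≤ Real.log (1 + L / D) := Real.log_nonneg (by linarith)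
    have ha_eq : Real.log (Real.exp 2 * (D + L) / D) = 2 + Real.log (1 + L / D) := by
      have h1' : Real.exp 2 * (D + L) / D = Real.exp 2 * (1 + L / D) := by
        field_simp
      rw [h1', Real.log_mul (Real.exp_pos _).ne' (by positivity), Real.log_exp]
    have ha_pos : 0 < Real.log (Real.exp 2 * (D + L) / D) := by rw [ha_eq]; linarith
    have ha_le : Real.log (Real.exp 2 * (D + L) / D) ≤ Real.log (1 + L / D') + 2 := by
      rw [ha_eq]
      have h2 : L / D ≤ L / D' := div_le_div_of_nonneg_left hL0.le hD'0 hDD'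
      have h3 : Real.log (1 + L / D) ≤ Real.log (1 + L / D') :=
        Real.log_le_log (by linarith) (by linarith)
      linarith
    have hb_pos : 0 < Real.log A₁ := Real.log_pos (by linarith)
    have hb_le : Real.log A₁ ≤ Real.log (1 + D') + 11 := by
      have h2 : A₁ ≤ 32768 * (1 + D') := by linarith
      have h3 : Real.log A₁ ≤ Real.log (32768 * (1 + D')) := Real.log_le_log hA₁pos h2
      rw [Real.log_mul (by norm_num) (by positivity)] at h3
      have h4 : Real.log 32768 ≤ 11 := by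
        have h5 : (32768 : ℝ) = 2 ^ 15 := by norm_num
        rw [h5, Real.log_pow]
        have := Real.log_two_lt_d9
        norm_num
        linarith
      linarith
    have hyh : yh (Real.log (Real.exp 2 * (D + L) / D)) (Real.log A₁) ≤
        yh (Real.log (1 + L / D')) (Real.log (1 + D')) + 13 := by
      have h2 := yh_mono ha_pos hb_pos ha_le hb_le
      have h3 := yh_add_le (s := 2) (t := 11) ha'0 hb'0 (by norm_num) (by norm_num)
      linarith
    have hexp : Real.exp (yh (Real.log (Real.exp 2 * (D + L) / D)) (Real.log A₁)) ≤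
        Real.exp 13 * Q := by
      have h2 := Real.exp_le_exp.2 hyh
      rw [Real.exp_add] at h2
      have h3 : Real.exp (yh (Real.log (1 + L / D')) (Real.log (1 + D'))) = Q := rfl
      rw [h3] at h2
      linarith
    set Θ := Real.exp 110 * Real.exp (yh (Real.log (Real.exp 2 * (D + L) / D)) (Real.log A₁)) * q
      with hΘd
    have hΘ0 : 0 < Θ := by
      rw [hΘd]
      positivity
    have hΘle : Θ ≤ A * (P' * Q) := by
      rw [hΘd, hA]
      calc Real.exp 110 * Real.exp (yh (Real.log (Real.exp 2 * (D + L) / D)) (Real.log A₁)) * q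
          ≤ Real.exp 110 * (Real.exp 13 * Q) * (4 * P') := by gcongr
        _ = Real.exp 110 * Real.exp 13 * 4 * (P' * Q) := by ring
    have hT := pTilde_le_of_embBound hV hΘ0 hEmb
    have hCp := pc_le_of_embBound hn hV hH hΘ0 hEmb
    have hAle : A * (P' * Q) ≤ C * (P' * Q) := by
      apply mul_le_mul_of_nonneg_right _ hS0.le
      linarith
    constructor
    · calc pTilde n H ≤ Θ := hT
        _ ≤ A * (P' * Q) := hΘle
        _ ≤ C * (P' * Q) := hAle
        _ = C * P' * Q := by ring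
    · calc pc n H ≤ 512 * L * Θ := hCp
        _ ≤ 512 * L * (A * (P' * Q)) := mul_le_mul_of_nonneg_left hΘle (by positivity)
        _ = L * ((512 * A) * (P' * Q)) := by ring
        _ ≤ L * (C * (P' * Q)) :=
            mul_le_mul_of_nonneg_left (mul_le_mul_of_nonneg_right hCA hS0.le) hL0.le
        _ = C * L * P' * Q := by ring
  · have hL1 : L ≤ 10000 := by linarith [not_le.1 hcase]
    have hPL : P * L ≤ 10000 * (P' * Q) := by
      have h2 : P * L ≤ P' * 10000 := mul_le_mul hPP' hL1 hL0.le hP'0.le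
      have h3 : P' * 10000 * 1 ≤ P' * 10000 * Q :=
        mul_le_mul_of_nonneg_left hQ1 (by positivity)
      linarith
    have hb1 : C₀ * (P * L) ≤ C * (P' * Q) := by
      calc C₀ * (P * L) ≤ C₀ * (10000 * (P' * Q)) := mul_le_mul_of_nonneg_left hPL hC₀.le
        _ = (10000 * C₀) * (P' * Q) := by ring
        _ ≤ C * (P' * Q) := mul_le_mul_of_nonneg_right hC0 hS0.le
    have hb2 : C₁ * (P * L) ≤ C * (P' * Q) := by
      calc C₁ * (P * L) ≤ C₁ * (10000 * (P' * Q)) := mul_le_mul_of_nonneg_left hPL hC₁.le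
        _ = (10000 * C₁) * (P' * Q) := by ring
        _ ≤ C * (P' * Q) := mul_le_mul_of_nonneg_right hC1 hS0.le
    constructor
    · calc pTilde n H ≤ C₀ * P * L := h01
        _ = C₀ * (P * L) := by ring
        _ ≤ C * (P' * Q) := hb1
        _ = C * P' * Q := by ring
    · calc pc n H ≤ C₁ * P * L ^ 2 := h11
        _ = L * (C₁ * (P * L)) := by ring
        _ ≤ L * (C * (P' * Q)) := mul_le_mul_of_nonneg_left hb2 hL0.le
        _ = C * L * P' * Q := by ring

end Vale.Agent.Lib.P064Y
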