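import Vale.Agent.Lib.P064Y.BlockFiber
import Vale.Agent.Lib.P064X.XMain
import Vale.Agent.Lib.P064U.WDefs

/-!
The main induction with degrees of the family: single vertices cost the actual degree (notes/P064Y_blueprint.md, part TY).
-/

open Finset

namespace Vale.Agent.Lib.P064Y

open Vale.Agent.Lib.P064 Vale.Agent.Lib.P064U
open scoped Classical

variable {V α : Type} [Fintype V] [Fintype α] {H : SimpleGraph V} {F : SimpleGraph α} {n : ℕ}
  {q : ℝ}

/-- `dW` grows with the set. -/
lemma dW_mono {E W : Finset α} (h : E ⊆ W) (y : α) : dW F E y ≤ dW F W y := by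
  unfold dW eT
  apply Finset.card_le_card
  intro e he
  induction e using Sym2.ind with
  | _ a b =>
    obtain ⟨h1, h2, h3, h4⟩ := mem_newE_pair.1 he
    refine mem_newE_pair.2 ⟨h1, ?_, ?_, ?_⟩
    · rcases h2 with h2 | h2
      · left
        obtain ⟨h5, h6⟩ := Finset.mem_sdiff.1 h2
        exact Finset.mem_sdiff.2 ⟨h h5, h6⟩
      · exact Or.inr h2
    · rcases h3 with h3 | h3
      · left
        obtain ⟨h5, h6⟩ := Finset.mem_sdiff.1 h3
        exact Finset.mem_sdiff.2 ⟨h h5, h6⟩
      · exact Or.inr h3
    · rintro ⟨h5, h6⟩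
      have h7 := (Finset.mem_sdiff.1 h5).2
      have h8 := (Finset.mem_sdiff.1 h6).2
      rcases h2 with h2 | h2
      · rcases h3 with h3 | h3
        · exact h4 ⟨h2, h3⟩
        · exact h8 h3
      · exact h7 h2

/-- A vertex `z ∉ E` with an edge of `F` to `u ∈ E`: one more at `u`. -/
lemma dW_succ {E : Finset α} {z u : α} (hz : z ∉ E) (hu : u ∈ E) (hadj : F.Adj z u) :
    dW F E u + 1 ≤ dW F (insert z E) u := by
  unfold dW eT
  have hzu : z ≠ u := fun h => hz (h ▸ hu)
  have hnot : s(z, u) ∉ newE F (E \ {u}) {u} := by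
    intro hmem
    obtain ⟨-, h2, -, -⟩ := mem_newE_pair.1 hmem
    rcases h2 with h2 | h2
    · exact hz (Finset.mem_sdiff.1 h2).1
    · exact hzu (Finset.mem_singleton.1 h2)
  rw [← Finset.card_insert_of_notMem hnot]
  apply Finset.card_le_card
  intro e he
  rcases Finset.mem_insert.1 he with rfl | he'
  · refine mem_newE_pair.2 ⟨hadj, Or.inl ?_, Or.inr (Finset.mem_singleton_self u), ?_⟩
    · exact Finset.mem_sdiff.2 ⟨Finset.mem_insert_self _ _, fun h => hzu (Finset.mem_singleton.1 h)⟩
    · rintro ⟨-, h6⟩
      exact (Finset.mem_sdiff.1 h6).2 (Finset.mem_singleton_self u)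
  · induction e using Sym2.ind with
    | _ a b =>
      obtain ⟨h1, h2, h3, h4⟩ := mem_newE_pair.1 he'
      refine mem_newE_pair.2 ⟨h1, ?_, ?_, ?_⟩
      · rcases h2 with h2 | h2
        · left
          obtain ⟨h5, h6⟩ := Finset.mem_sdiff.1 h2
          exact Finset.mem_sdiff.2 ⟨Finset.mem_insert_of_mem h5, h6⟩
        · exact Or.inr h2
      · rcases h3 with h3 | h3
        · left
          obtain ⟨h5, h6⟩ := Finset.mem_sdiff.1 h3
          exact Finset.mem_sdiff.2 ⟨Finset.mem_insert_of_mem h5, h6⟩
        · exact Or.inr h3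
      · rintro ⟨h5, h6⟩
        have h7 := (Finset.mem_sdiff.1 h5).2
        have h8 := (Finset.mem_sdiff.1 h6).2
        rcases h2 with h2 | h2
        · rcases h3 with h3 | h3
          · exact h4 ⟨h2, h3⟩
          · exact h8 h3
        · exact h7 h2

/-- The image of a family agreeing on `E`: it is determined by the value at `z`. -/
private lemma single_image_le {E : Finset α} {z : α}
    (S : Finset (α → V)) {φ₀ : α → V} (hagree : ∀ φ ∈ S, ∀ x ∈ E, φ x = φ₀ x)
    (T : Finset V) (hT : ∀ φ ∈ S, φ z ∈ T) :
    (S.image (proj (E ∪ {z}))).card ≤ T.card := by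
  have hsub : S.image (proj (E ∪ {z})) ⊆
      T.image (fun v => proj (E ∪ {z}) (Function.update φ₀ z v)) := by
    intro ψ hψ
    obtain ⟨φ, hφ, rfl⟩ := Finset.mem_image.1 hψ
    refine Finset.mem_image.2 ⟨φ z, hT φ hφ, ?_⟩
    funext x
    unfold proj
    by_cases hx : x ∈ E ∪ {z}
    · rw [if_pos hx, if_pos hx]
      by_cases hxz : x = z
      · subst hxz
        rw [Function.update_self]
      · rw [Function.update_of_ne hxz]
        rcases Finset.mem_union.1 hx with h | h
        · rw [hagree φ hφ x h]
        · exact absurd (Finset.mem_singleton.1 h) hxz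
    · rw [if_neg hx, if_neg hx]
  exact (Finset.card_le_card hsub).trans Finset.card_image_le

/-- A single vertex with exactly one edge to `E` has a unique neighbour `u ∈ E`. -/
private lemma single_unique {E : Finset α} {z : α} (hz : z ∉ E) (hm : (newE F E {z}).card = 1) :
    ∃ u ∈ E, F.Adj z u := by
  obtain ⟨e, he⟩ := Finset.card_eq_one.1 hm
  have hmem : e ∈ newE F E {z} := by
    rw [he]
    exact Finset.mem_singleton_self e
  induction e using Sym2.ind with
  | _ a b =>
    obtain ⟨h1, h2, h3, h4⟩ := mem_newE_pair.1 hmem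
    rcases h2 with h2 | h2
    · rcases h3 with h3 | h3
      · exact absurd ⟨h2, h3⟩ h4
      · have hbz := Finset.mem_singleton.1 h3
        subst hbz
        exact ⟨a, h2, h1.symm⟩
    · have haz := Finset.mem_singleton.1 h2
      subst haz
      rcases h3 with h3 | h3
      · exact ⟨b, h3, h1⟩
      · have hbz := Finset.mem_singleton.1 h3
        subst hbz
        exact absurd h1 (F.loopless.1 _)

private lemma single_unique' {E : Finset α} {z u u' : α} (hz : z ∉ E) (hm : (newE F E {z}).card = 1)
    (hu : u ∈ E) (hadj : F.Adj z u) (hu' : u' ∈ E) (hadj' : F.Adj z u') : u' = u := by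
  have h1 : s(z, u) ∈ newE F E {z} :=
    mem_newE_pair.2 ⟨hadj, Or.inr (Finset.mem_singleton_self z), Or.inl hu, fun h => hz h.1⟩
  have h2 : s(z, u') ∈ newE F E {z} :=
    mem_newE_pair.2 ⟨hadj', Or.inr (Finset.mem_singleton_self z), Or.inl hu', fun h => hz h.1⟩
  obtain ⟨e, he⟩ := Finset.card_eq_one.1 hm
  rw [he] at h1 h2
  have h3 := (Finset.mem_singleton.1 h1).trans (Finset.mem_singleton.1 h2).symm
  rcases Sym2.eq_iff.1 h3 with ⟨-, h4⟩ | ⟨h4, h5⟩
  · exact h4.symm
  · exact absurd (h4 ▸ hu') hz

private lemma ite_mono_aux {s t : Finset α} (h : s ⊆ t) (y : α) :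
    (if y ∈ s then 1 else 0) ≤ (if y ∈ t then 1 else 0) := by
  by_cases hy : y ∈ s
  · rw [if_pos hy, if_pos (h hy)]
  · rw [if_neg hy]
    exact Nat.zero_le _

private lemma prod_update_aux (g : α → ℝ) (c : α → ℕ) (u : α) :
    ∏ y, g y ^ (Function.update c u (c u + 1)) y = g u * ∏ y, g y ^ c y := by
  have h : ∀ y ∈ (univ : Finset α).erase u, g y ^ (Function.update c u (c u + 1)) y = g y ^ c y := by
    intro y hy
    rw [Function.update_of_ne (Finset.ne_of_mem_erase hy)]
  rw [← Finset.mul_prod_erase univ (fun y => g y ^ (Function.update c u (c u + 1)) y) (Finset.mem_univ u),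
    ← Finset.mul_prod_erase univ (fun y => g y ^ c y) (Finset.mem_univ u), Finset.prod_congr rfl h]
  simp only [Function.update_self]
  ring

/-- The main induction.  Model: `x_main` (Lib/P064X/XMain.lean), `x_exists_min_not_low`, `x_not_low_of_member`, `card_image_proj_step_real`.  With `I` minimal not low in `W`, `E = W \ I`, `(c, Rt, X)` for `E` by induction:
(a) `I = {z}`, no edge to `E` (`hm2` of `x_fiber`: at most one edge): same `c`, `Rt ∪ {z}`, same `X`, `B = xA * n`.
(b) `I = {z}`, one edge to `E`, at `u`: `c + 1` at `u`, same `Rt`, same `X`, `B = xA * xKb * (n q) * g u`; `xA, xKb ≥ 1`.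
(c) `|I| ≥ 2`: same `c`, `Rt`, `X + x`, `y_fiber_block`, `y_block_excess`. -/
theorem ty_main (hG : GoodDensity n q H) (hn : 2 ≤ n) (hV : Fintype.card V ≤ n) (hq0 : 0 < q)
    (hqe : q ≤ Real.exp (-1)) (hL : 1 ≤ Real.log n) (hQ16 : 16 ≤ - Real.log q)
    (hD : 1 ≤ (n : ℝ) * q) (hD2 : (Real.exp 1 * ((n : ℝ) * q)) ^ 2 < n)
    (S : Finset (α → V)) (hS : S.Nonempty) (hinj : ∀ φ ∈ S, Function.Injective φ)
    (hhom : ∀ φ ∈ S, ∀ u v, F.Adj u v → H.Adj (φ u) (φ v))
    (g : α → ℝ) (hg1 : ∀ y, 1 ≤ g y)
    (hdeg : ∀ φ ∈ S, ∀ y, ((nb H (φ y)).card : ℝ) ≤ g y * ((n : ℝ) * q)) (k : ℕ) :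
    ∀ W : Finset α, W.card ≤ k → ∃ (c : α → ℕ) (Rt : Finset α) (X : ℕ),
      (∀ y ∈ W, c y + 1 ≤ dW F W y + (if y ∈ Rt then 1 else 0)) ∧
      (∀ y, y ∉ W → c y = 0) ∧ Rt ⊆ W ∧
      Rt.card + (eIn F W).card = W.card + X ∧
      (X : ℝ) * (- Real.log q - 1) ≤ (W.card : ℝ) * (Real.log ((n : ℝ) * q) + 1) ∧
      ((S.image (proj W)).card : ℝ) ≤
        xA ^ W.card * xKb n q ^ (eIn F W).card * ((n : ℝ) ^ W.card * q ^ (eIn F W).card) *
          ∏ y, g y ^ c y := by
  have hn0 : (0 : ℝ) < n := by
    have : 0 < n := by omega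
    exact_mod_cast this
  have hn' : 1 ≤ n := by omega
  have hA1 := one_le_xA
  have hA0 : (0 : ℝ) ≤ xA := by linarith
  have hKap : 0 ≤ xKap n q := by
    unfold xKap
    have h1 : 0 ≤ Real.log (Real.log n) := Real.log_nonneg hL
    have h2 : 0 ≤ - Real.log q := by linarith
    have hg0 : 0 ≤ Real.log ((n : ℝ) * q) := Real.log_nonneg hD
    positivity
  have hKb1 : 1 ≤ xKb n q := one_le_xKb hKap
  have hKb0 : 0 ≤ xKb n q := by linarith
  have hgg : 0 ≤ Real.log ((n : ℝ) * q) + 1 := by
    have := Real.log_nonneg hD
    linarith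
  have hgpos : ∀ y, 0 ≤ g y := fun y => by
    have := hg1 y
    linarith
  have hprod0 : ∀ c : α → ℕ, 0 ≤ ∏ y, g y ^ c y :=
    fun c => Finset.prod_nonneg (fun y _ => pow_nonneg (hgpos y) _)
  have hqe1 : Real.exp 1 * q ≤ 1 := by
    have h1 : Real.exp 1 * q ≤ Real.exp 1 * Real.exp (-1) :=
      mul_le_mul_of_nonneg_left hqe (Real.exp_pos _).le
    rw [← Real.exp_add] at h1
    simpa using h1
  have heq0 : 0 < Real.exp 1 * q := by positivity
  induction k with
  | zero =>
    intro W hW
    have hW0 : W = ∅ := Finset.card_eq_zero.1 (Nat.le_zero.1 hW)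
    subst hW0
    refine ⟨fun _ => 0, ∅, 0, by simp, fun _ _ => rfl, by simp, by simp [eIn_empty], by simp, ?_⟩
    have h1 : (S.image (proj (∅ : Finset α))).card ≤ 1 := by
      refine Finset.card_le_one.2 ?_
      intro a ha b hb
      obtain ⟨φ, _, rfl⟩ := Finset.mem_image.1 ha
      obtain ⟨φ', _, rfl⟩ := Finset.mem_image.1 hb
      funext x
      simp [proj]
    rw [eIn_empty]
    simp only [Finset.card_empty, pow_zero, mul_one, Finset.prod_const_one]
    exact_mod_cast h1
  | succ k ih =>
    intro W hW
    by_cases hne : W.Nonempty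
    swap
    · rw [Finset.not_nonempty_iff_eq_empty] at hne
      subst hne
      exact ih ∅ (by simp)
    obtain ⟨φ₁, hφ₁⟩ := hS
    have hτ := x_not_low_of_member (W := W) hG hn' hq0 hqe (hinj φ₁ hφ₁) (hhom φ₁ hφ₁)
    obtain ⟨I, hIW, hIne, hIτ, hImin⟩ := x_exists_min_not_low (n := n) (q := q) (F := F) hne hτ
    obtain ⟨E, hE⟩ : ∃ E, E = W \ I := ⟨_, rfl⟩
    have hU : E ∪ I = W := by
      rw [hE]
      exact Finset.sdiff_union_of_subset hIW
    have hdisj : Disjoint I E := by
      rw [hE]
      exact Finset.disjoint_sdiff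
    have hIc : 0 < I.card := Finset.card_pos.2 hIne
    have hcard : W.card = E.card + I.card := by
      rw [← hU]
      exact Finset.card_union_of_disjoint hdisj.symm
    obtain ⟨c, Rt, X, h1, h2, h3, h4, h5, h6⟩ := ih E (by omega)
    subst hU
    have hcardE : (eIn F (E ∪ I)).card = (eIn F E).card + (newE F E I).card := eIn_union_card
    have hEW : E ⊆ E ∪ I := Finset.subset_union_left
    have hnotE : ∀ y, y ∈ I → y ∉ E := fun y hy => Finset.disjoint_left.1 hdisj hy
    have hτ' := hIτ
    rw [eT_union_self hdisj] at hτ'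
    have hgen : ∀ (x : ℕ), (x : ℝ) * (- Real.log q - 1) ≤ (I.card : ℝ) * (Real.log ((n : ℝ) * q) + 1) →
        ((X + x : ℕ) : ℝ) * (- Real.log q - 1) ≤ ((E ∪ I).card : ℝ) * (Real.log ((n : ℝ) * q) + 1) := by
      intro x hx
      rw [hcard]
      push_cast
      linarith
    by_cases ha : I.card = 1
    · obtain ⟨z, rfl⟩ := Finset.card_eq_one.1 ha
      have hzE : z ∉ E := hnotE z (Finset.mem_singleton_self z)
      have hzRt : z ∉ Rt := fun h => hzE (h3 h)
      rw [Finset.card_singleton, pow_one] at hτ'
      have hm2 : (newE F E {z}).card < 2 := by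
        by_contra hcon
        push Not at hcon
        have h7 : (Real.exp 1 * q) ^ (newE F E {z}).card ≤ (Real.exp 1 * q) ^ 2 :=
          pow_le_pow_of_le_one heq0.le hqe1 hcon
        have h8 : (n : ℝ) * (Real.exp 1 * q) ^ 2 < 1 := by
          have h9 : (Real.exp 1 * ((n : ℝ) * q)) ^ 2 = n * ((n : ℝ) * (Real.exp 1 * q) ^ 2) := by ring
          rw [h9] at hD2
          have h10 : (n : ℝ) * ((n : ℝ) * (Real.exp 1 * q) ^ 2) < n * 1 := by linarith
          exact lt_of_mul_lt_mul_left h10 hn0.le
        have h11 : (n : ℝ) * (Real.exp 1 * q) ^ (newE F E {z}).card ≤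
            (n : ℝ) * (Real.exp 1 * q) ^ 2 := mul_le_mul_of_nonneg_left h7 hn0.le
        linarith
      by_cases hm0 : (newE F E {z}).card = 0
      · -- no edge to `E`
        refine ⟨c, insert z Rt, X, ?_, ?_, ?_, ?_, ?_, ?_⟩
        · intro y hy
          rcases Finset.mem_union.1 hy with hyE | hyz
          · have h7 := h1 y hyE
            have h8 := dW_mono (F := F) hEW y
            have h9 := ite_mono_aux (Finset.subset_insert z Rt) y
            omega
          · rw [Finset.mem_singleton.1 hyz, h2 z hzE, if_pos (Finset.mem_insert_self z Rt)]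
            omega
        · intro y hy
          exact h2 y (fun h => hy (hEW h))
        · intro y hy
          rcases Finset.mem_insert.1 hy with rfl | hy'
          · exact Finset.mem_union_right _ (Finset.mem_singleton_self _)
          · exact hEW (h3 hy')
        · rw [Finset.card_insert_of_notMem hzRt, hcardE, hm0, hcard, Finset.card_singleton]
          omega
        · have h7 := hgen 0 (by
            simp only [Nat.cast_zero, zero_mul, Finset.card_singleton, Nat.cast_one, one_mul]
            exact hgg)
          simpa using h7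
        · have hB0 : 0 ≤ xA * (n : ℝ) := by positivity
          have hstep := card_image_proj_step_real S (D := E) (D' := E ∪ {z}) (B := xA * (n : ℝ)) hEW hB0 (by
            intro φ₂ _
            have h7 := single_image_le (E := E) (z := z) (S.filter (fun φ => proj E φ = proj E φ₂)) (φ₀ := φ₂)
              (fun φ hφ x hx => proj_eq_apply hx (Finset.mem_filter.1 hφ).2) univ (fun _ _ => Finset.mem_univ _)
            rw [Finset.card_univ] at h7
            have h8 : (((S.filter (fun φ => proj E φ = proj E φ₂)).image (proj (E ∪ {z}))).card : ℝ) ≤ n := by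
              exact_mod_cast h7.trans hV
            calc _ ≤ (n : ℝ) := h8
              _ = 1 * (n : ℝ) := (one_mul _).symm
              _ ≤ xA * (n : ℝ) := mul_le_mul_of_nonneg_right hA1 hn0.le)
          have hih := mul_le_mul_of_nonneg_left h6 hB0
          refine hstep.trans (hih.trans (le_of_eq ?_))
          rw [hcardE, hm0, hcard, Finset.card_singleton]
          ring
      · -- one edge to `E`
        have hm1 : (newE F E {z}).card = 1 := by omega
        obtain ⟨u, huE, hadj⟩ := single_unique hzE hm1
        have hzu : z ≠ u := fun h => hzE (h ▸ huE)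
        have hunion : E ∪ {z} = insert z E := by
          ext x
          simp only [Finset.mem_union, Finset.mem_singleton, Finset.mem_insert]
          tauto
        refine ⟨Function.update c u (c u + 1), Rt, X, ?_, ?_, ?_, ?_, ?_, ?_⟩
        · intro y hy
          by_cases hyu : y = u
          · subst hyu
            rw [Function.update_self]
            have h7 := h1 y huE
            have h8 := dW_succ (F := F) hzE huE hadj
            rw [hunion]
            omega
          · rw [Function.update_of_ne hyu]
            rcases Finset.mem_union.1 hy with hyE | hyz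
            · have h7 := h1 y hyE
              have h8 := dW_mono (F := F) hEW y
              omega
            · have hyz' := Finset.mem_singleton.1 hyz
              subst hyz'
              rw [h2 y hzE, if_neg hzRt]
              have h8 : 0 < dW F (E ∪ {y}) y := by
                unfold dW eT
                refine Finset.card_pos.2 ⟨s(y, u), mem_newE_pair.2 ⟨hadj, Or.inr (Finset.mem_singleton_self y), Or.inl ?_, ?_⟩⟩
                · exact Finset.mem_sdiff.2 ⟨hEW huE, fun h => hzu (Finset.mem_singleton.1 h).symm⟩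
                · rintro ⟨h9, -⟩
                  exact (Finset.mem_sdiff.1 h9).2 (Finset.mem_singleton_self y)
              omega
        · intro y hy
          have hyu : y ≠ u := fun h => hy (hEW (h ▸ huE))
          rw [Function.update_of_ne hyu]
          exact h2 y (fun h => hy (hEW h))
        · exact h3.trans hEW
        · rw [hcardE, hm1, hcard, Finset.card_singleton]
          omega
        · have h7 := hgen 0 (by
            simp only [Nat.cast_zero, zero_mul, Finset.card_singleton, Nat.cast_one, one_mul]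
            exact hgg)
          simpa using h7
        · have hgu := hgpos u
          have hB0 : 0 ≤ xA * xKb n q * ((n : ℝ) * q) * g u := by positivity
          have hstep := card_image_proj_step_real S (D := E) (D' := E ∪ {z})
              (B := xA * xKb n q * ((n : ℝ) * q) * g u) hEW hB0 (by
            intro φ₂ hφ₂
            have h7 := single_image_le (E := E) (z := z) (S.filter (fun φ => proj E φ = proj E φ₂)) (φ₀ := φ₂)
              (fun φ hφ x hx => proj_eq_apply hx (Finset.mem_filter.1 hφ).2) (nb H (φ₂ u)) (by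
                intro φ hφ
                have hφ' := Finset.mem_filter.1 hφ
                have h8 : φ u = φ₂ u := proj_eq_apply huE hφ'.2
                have h9 := hhom φ hφ'.1 z u hadj
                rw [h8] at h9
                exact mem_nb.2 h9.symm)
            have h8 := hdeg φ₂ hφ₂ u
            have h9 : (((S.filter (fun φ => proj E φ = proj E φ₂)).image (proj (E ∪ {z}))).card : ℝ) ≤
                ((nb H (φ₂ u)).card : ℝ) := by
              exact_mod_cast h7
            have hxx : 1 ≤ xA * xKb n q := one_le_mul_of_one_le_of_one_le hA1 hKb1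
            have hy0 : 0 ≤ g u * ((n : ℝ) * q) := by positivity
            calc _ ≤ g u * ((n : ℝ) * q) := h9.trans h8
              _ = 1 * (g u * ((n : ℝ) * q)) := (one_mul _).symm
              _ ≤ (xA * xKb n q) * (g u * ((n : ℝ) * q)) := mul_le_mul_of_nonneg_right hxx hy0
              _ = _ := by ring)
          have hih := mul_le_mul_of_nonneg_left h6 hB0
          refine hstep.trans (hih.trans (le_of_eq ?_))
          rw [prod_update_aux, hcardE, hm1, hcard, Finset.card_singleton]
          ring
    · -- at least two vertices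
      have ha2 : 2 ≤ I.card := by omega
      obtain ⟨hdW, x, hm, hxa⟩ := y_block_excess (F := F) hn hq0 hqe hD hdisj ha2 hIτ hImin
      refine ⟨c, Rt, X + x, ?_, (fun y hy => h2 y (fun h => hy (hEW h))), h3.trans hEW, ?_, hgen x hxa, ?_⟩
      · intro y hy
        rcases Finset.mem_union.1 hy with hyE | hyI
        · have h7 := h1 y hyE
          have h8 := dW_mono (F := F) hEW y
          omega
        · have h7 := hdW y hyI
          rw [h2 y (hnotE y hyI)]
          omega
      · rw [hcardE, hm, hcard]
        omega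
      · have hB0 : 0 ≤ xA ^ I.card * xKb n q ^ (newE F E I).card *
            ((n : ℝ) ^ I.card * q ^ (newE F E I).card) := by positivity
        have hstep := card_image_proj_step_real S (D := E) (D' := E ∪ I) hEW hB0 (by
          intro φ₂ _
          have hsub : S.filter (fun φ => proj E φ = proj E φ₂) ⊆ S := Finset.filter_subset _ _
          exact y_fiber_block (F := F) hG hn hV hq0 hqe hL hQ16 hD hD2 hdisj hIne ha2 hIτ hImin
            (S := S.filter (fun φ => proj E φ = proj E φ₂)) (φ₀ := φ₂)
            (fun φ hφ => hinj φ (hsub hφ)) (fun φ hφ => hhom φ (hsub hφ))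
            (fun φ hφ x hx => proj_eq_apply hx (Finset.mem_filter.1 hφ).2))
        have hih := mul_le_mul_of_nonneg_left h6 hB0
        refine hstep.trans (hih.trans (le_of_eq ?_))
        rw [hcardE, hcard]
        ring

end Vale.Agent.Lib.P064Y
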