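import Vale.Agent.Lib.P064Q.Weights

/-!
The weights of the classes other than low (notes/P064Y_blueprint.md, part WT).
-/

open Finset

namespace Vale.Agent.Lib.P064Y

open Vale.Agent.Lib.P064Q

/-- The weight of the low class. -/
lemma WQ_low {I : ℕ} {A₁ D : ℝ} {s₁ δ cF cS : ℕ} :
    WQ (I := I) A₁ D s₁ δ cF cS (Sum.inl 0) = A₁ ^ (cF + cS) := by
  simp [WQ]

/-- The truncated geometric sum. -/
lemma geom_tail (s₁ I : ℕ) :
    ∑ i ∈ range I, (if s₁ ≤ i then ((1 : ℝ) / 2) ^ i else 0) ≤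
      2 * (1 / 2) ^ s₁ - 2 * (1 / 2) ^ (max I s₁) := by
  induction I with
  | zero =>
    simp
  | succ I ih =>
    rw [Finset.sum_range_succ]
    by_cases h : s₁ ≤ I
    · have h1 : max I s₁ = I := max_eq_left h
      have h2 : max (I + 1) s₁ = I + 1 := max_eq_left (by omega)
      rw [h1] at ih
      rw [if_pos h, h2, pow_succ]
      linarith
    · have h1 : max I s₁ = s₁ := max_eq_right (by omega)
      have h2 : max (I + 1) s₁ = s₁ := max_eq_right (by omega)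
      rw [h1] at ih
      rw [if_neg h, h2]
      linarith

/-- The sum over the hubs: `hub_weight_le` and `Σ_{i ≥ s₁} 2^(-i) ≤ 2 * 2^(-s₁)`. -/
theorem hub_sum {I : ℕ} {A₁ D : ℝ} {s₁ δ cF cS : ℕ} (hs : 12 ≤ s₁) (hA : A₁ = 2 ^ s₁)
    (hD0 : 0 ≤ D) (hD : 4096 * D ≤ A₁) :
    ∑ i : Fin I, WQ (I := I) A₁ D s₁ δ cF cS (Sum.inr i) ≤
      (16 * Real.exp 1) ^ cF * (2 / A₁) := by
  have hterm : ∀ i : Fin I, WQ (I := I) A₁ D s₁ δ cF cS (Sum.inr i) ≤
      (16 * Real.exp 1) ^ cF * (if s₁ ≤ (i : ℕ) then ((1 : ℝ) / 2) ^ (i : ℕ) else 0) := by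
    intro i
    simp only [WQ, Sum.elim_inr]
    split_ifs with h
    · exact hub_weight_le hs hA hD0 hD h
    · simp
  have hgeo : ∑ i : Fin I, (if s₁ ≤ (i : ℕ) then ((1 : ℝ) / 2) ^ (i : ℕ) else 0) ≤ 2 / A₁ := by
    rw [Fin.sum_univ_eq_sum_range (fun i => if s₁ ≤ i then ((1 : ℝ) / 2) ^ i else 0) I]
    have h1 := geom_tail s₁ I
    have h2 : (0 : ℝ) ≤ 2 * (1 / 2) ^ (max I s₁) := by positivity
    have h3 : 2 * ((1 : ℝ) / 2) ^ s₁ = 2 / A₁ := by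
      rw [hA, one_div, inv_pow]; rfl
    linarith
  calc ∑ i : Fin I, WQ (I := I) A₁ D s₁ δ cF cS (Sum.inr i)
      ≤ ∑ i : Fin I, (16 * Real.exp 1) ^ cF * (if s₁ ≤ (i : ℕ) then ((1 : ℝ) / 2) ^ (i : ℕ) else 0) :=
        Finset.sum_le_sum fun i _ => hterm i
    _ = (16 * Real.exp 1) ^ cF * ∑ i : Fin I, (if s₁ ≤ (i : ℕ) then ((1 : ℝ) / 2) ^ (i : ℕ) else 0) := by
        rw [Finset.mul_sum]
    _ ≤ _ := mul_le_mul_of_nonneg_left hgeo (by positivity)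

/-- The sum over all classes but low: dense `≤ exp (32 δ)` (as in `vertex_sum`), chord `1`, hubs `hub_sum`, `2 / A₁ ≤ 1`. -/
theorem nonlow_sum {I : ℕ} {A₁ D : ℝ} {s₁ δ cF cS : ℕ} (hs : 12 ≤ s₁) (hA : A₁ = 2 ^ s₁)
    (hD0 : 0 ≤ D) (hD : 4096 * D ≤ A₁) :
    ∑ c ∈ (univ : Finset (Cls I)).filter (fun c => c ≠ Sum.inl 0), WQ A₁ D s₁ δ cF cS c ≤
      3 * (16 * Real.exp 1) ^ (cF + cS) * Real.exp (32 * (δ : ℝ)) := by
  have he1 : 1 ≤ Real.exp 1 := by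
    have := Real.add_one_le_exp (1 : ℝ); linarith
  have hbase1 : (1 : ℝ) ≤ 16 * Real.exp 1 := by linarith
  have hP1 : (1 : ℝ) ≤ (16 * Real.exp 1) ^ (cF + cS) := one_le_pow₀ hbase1
  have hE1 : 1 ≤ Real.exp (32 * (δ : ℝ)) := by
    apply Real.one_le_exp; positivity
  have hA4096 : (4096 : ℝ) ≤ A₁ := by
    rw [hA]
    calc (4096 : ℝ) = 2 ^ 12 := by norm_num
      _ ≤ 2 ^ s₁ := pow_le_pow_right₀ (by norm_num) hs
  set K : ℝ := (16 * Real.exp 1) ^ (cF + cS) * Real.exp (32 * (δ : ℝ)) with hK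
  have hK1 : 1 ≤ K := by
    rw [hK]; nlinarith
  have hK' : 3 * (16 * Real.exp 1) ^ (cF + cS) * Real.exp (32 * (δ : ℝ)) = 3 * K := by
    rw [hK]; ring
  rw [hK', Finset.sum_filter, Fintype.sum_sum_type, Fin.sum_univ_three]
  have h0 : (if (Sum.inl 0 : Cls I) ≠ Sum.inl 0 then WQ A₁ D s₁ δ cF cS (Sum.inl 0 : Cls I) else 0) = 0 := by
    simp
  have h1 : (if (Sum.inl 1 : Cls I) ≠ Sum.inl 0 then WQ A₁ D s₁ δ cF cS (Sum.inl 1 : Cls I) else 0) ≤ K := by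
    have hne : (Sum.inl 1 : Cls I) ≠ Sum.inl 0 := by simp
    rw [if_pos hne]
    have hWQ : WQ (I := I) A₁ D s₁ δ cF cS (Sum.inl 1) =
        (8 * (δ : ℝ)) ^ cF / (cF.factorial : ℝ) * (8 * (δ : ℝ)) ^ (min cS 3) := by
      simp [WQ]
    rw [hWQ]
    set x : ℝ := 8 * (δ : ℝ) with hx
    have hx0 : 0 ≤ x := by positivity
    have ha : x ^ cF / (cF.factorial : ℝ) ≤ Real.exp x := Real.pow_div_factorial_le_exp x hx0 cF
    have hb : x ^ (min cS 3) ≤ Real.exp (3 * x) := by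
      have hxe : x ≤ Real.exp x := by
        have := Real.add_one_le_exp x; linarith
      calc x ^ (min cS 3) ≤ (Real.exp x) ^ (min cS 3) := pow_le_pow_left₀ hx0 hxe _
        _ ≤ (Real.exp x) ^ 3 := by
            apply pow_le_pow_right₀ (Real.one_le_exp hx0) (min_le_right _ _)
        _ = Real.exp (3 * x) := by
            rw [← Real.exp_nat_mul]; norm_num
    have hc : x ^ cF / (cF.factorial : ℝ) * x ^ (min cS 3) ≤ Real.exp (32 * (δ : ℝ)) := by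
      calc x ^ cF / (cF.factorial : ℝ) * x ^ (min cS 3)
          ≤ Real.exp x * Real.exp (3 * x) :=
            mul_le_mul ha hb (by positivity) (Real.exp_pos _).le
        _ = Real.exp (32 * (δ : ℝ)) := by
            rw [← Real.exp_add]; congr 1; rw [hx]; ring
    rw [hK]
    nlinarith
  have h2 : (if (Sum.inl 2 : Cls I) ≠ Sum.inl 0 then WQ A₁ D s₁ δ cF cS (Sum.inl 2 : Cls I) else 0) ≤ K := by
    have hne : (Sum.inl 2 : Cls I) ≠ Sum.inl 0 := by simp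
    rw [if_pos hne]
    have hWQ : WQ (I := I) A₁ D s₁ δ cF cS (Sum.inl 2) = 1 := by
      simp [WQ]
    rw [hWQ]
    exact hK1
  have h3 : (∑ i : Fin I, if (Sum.inr i : Cls I) ≠ Sum.inl 0 then WQ A₁ D s₁ δ cF cS (Sum.inr i : Cls I) else 0) ≤ K := by
    have hsimp : (∑ i : Fin I, if (Sum.inr i : Cls I) ≠ Sum.inl 0 then WQ A₁ D s₁ δ cF cS (Sum.inr i : Cls I) else 0) =
        ∑ i : Fin I, WQ (I := I) A₁ D s₁ δ cF cS (Sum.inr i) := by
      apply Finset.sum_congr rfl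
      intro i _
      simp
    rw [hsimp]
    refine (hub_sum hs hA hD0 hD).trans ?_
    have h2A : 2 / A₁ ≤ 1 := by
      rw [div_le_one (by linarith)]; linarith
    have hpow : (16 * Real.exp 1) ^ cF ≤ (16 * Real.exp 1) ^ (cF + cS) :=
      pow_le_pow_right₀ hbase1 (by omega)
    have hp0 : (0 : ℝ) ≤ (16 * Real.exp 1) ^ cF := by positivity
    rw [hK]
    calc (16 * Real.exp 1) ^ cF * (2 / A₁) ≤ (16 * Real.exp 1) ^ cF * 1 :=
          mul_le_mul_of_nonneg_left h2A hp0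
      _ = (16 * Real.exp 1) ^ cF := mul_one _
      _ ≤ (16 * Real.exp 1) ^ (cF + cS) := hpow
      _ ≤ _ := by nlinarith
  rw [h0]
  linarith

end Vale.Agent.Lib.P064Y
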